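import Vale.Agent.P032.Six.Geo

/-!
# P032, block S5, (V): a locally constant mod-2 cocycle on a closed cover of the disc
-/

open Set Filter Topology Metric

noncomputable section

namespace Vale.Agent.P032.S5.End

open Vale.Agent.P032.Six

variable {K : ℂ → Set (Fin 6)} {v : ℂ} {φ : Fin 6 → Fin 6 → ℂ → ZMod 2}

/-- uniform mesh form of the cocycle -/
theorem glob (usc : ∀ x, ∀ᶠ y in 𝓝 x, K y ⊆ K x)
    (sym : ∀ i j x, φ i j x = φ j i x)
    (loc : ∀ i j, i ≠ j → ∀ x ∈ closedBall v 1, i ∈ K x → j ∈ K x →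
      ∀ᶠ y in 𝓝 x, y ∈ closedBall v 1 → i ∈ K y → j ∈ K y → φ i j y = φ i j x)
    (coc : ∀ x ∈ closedBall v 1, ∀ i j k, i ≠ j → j ≠ k → i ≠ k → i ∈ K x → j ∈ K x → k ∈ K x →
      φ i j x + φ j k x + φ i k x = 0) :
    ∃ δ > 0, ∃ g : ℂ → Fin 6 → Fin 6 → ZMod 2, (∀ P a, g P a a = 0) ∧
      (∀ P₁ ∈ closedBall v 1, ∀ P₂ ∈ closedBall v 1, ∀ P₃ ∈ closedBall v 1, dist P₁ P₂ < δ →
        dist P₁ P₃ < δ → dist P₂ P₃ < δ → ∀ a ∈ K P₁, ∀ b ∈ K P₂, ∀ c ∈ K P₃,
        g P₁ a b + g P₂ b c + g P₁ a c = 0) ∧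
      (∀ P₁ ∈ closedBall v 1, ∀ P₂ ∈ closedBall v 1, dist P₁ P₂ < δ → ∀ a ∈ K P₁, ∀ b ∈ K P₂,
        a ≠ b → ∃ w, g P₁ a b = φ a b w) := by
  classical
  have hcomp : IsCompact (closedBall v 1) := isCompact_closedBall v 1
  -- local radii
  have h1 : ∀ x : closedBall v 1, ∃ r > 0, ∀ y : ℂ, dist y (x : ℂ) < r → y ∈ closedBall v 1 →
      K y ⊆ K x ∧ ∀ i j, i ≠ j → i ∈ K y → j ∈ K y → φ i j y = φ i j x := by
    rintro ⟨x, hx⟩
    have h2 : ∀ᶠ y in 𝓝 x, ∀ i j : Fin 6, i ≠ j → i ∈ K x → j ∈ K x → y ∈ closedBall v 1 →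
        i ∈ K y → j ∈ K y → φ i j y = φ i j x := by
      rw [eventually_all]
      intro i
      rw [eventually_all]
      intro j
      by_cases hij : i ≠ j ∧ i ∈ K x ∧ j ∈ K x
      · filter_upwards [loc i j hij.1 x hx hij.2.1 hij.2.2] with y hy _ _ _ h1 h2 h3
        exact hy h1 h2 h3
      · exact Eventually.of_forall fun y a b c => absurd ⟨a, b, c⟩ hij
    obtain ⟨r, hr, h3⟩ := Metric.eventually_nhds_iff.1 ((usc x).and h2)
    refine ⟨r, hr, fun y hy hyD => ⟨(h3 hy).1, fun i j hij hi hj => ?_⟩⟩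
    exact (h3 hy).2 i j hij ((h3 hy).1 hi) ((h3 hy).1 hj) hyD hi hj
  choose r hr hloc using h1
  obtain ⟨δB, hδB, hB⟩ := lebesgue_number_lemma_of_metric hcomp
    (c := fun x : closedBall v 1 => ball (x : ℂ) (r x)) (fun x => isOpen_ball)
    (fun x hx => mem_iUnion.2 ⟨⟨x, hx⟩, mem_ball_self (hr _)⟩)
  obtain ⟨δA, hδA, hA⟩ := lebesgue_number_lemma_of_metric hcomp
    (c := fun x : closedBall v 1 => ball (x : ℂ) (min (r x) (δB / 4))) (fun x => isOpen_ball)
    (fun x hx => mem_iUnion.2 ⟨⟨x, hx⟩, mem_ball_self (lt_min (hr _) (by positivity))⟩)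
  -- two points of `C_ab` near `P`
  have key : ∀ P ∈ closedBall v 1, ∀ a b, a ≠ b → ∀ w ∈ closedBall v 1, ∀ W ∈ closedBall v 1,
      dist w P < δB → dist W P < δB → a ∈ K w → b ∈ K w → a ∈ K W → b ∈ K W →
      φ a b w = φ a b W := by
    intro P hP a b hab w hw W hW hwP hWP h1 h2 h3 h4
    obtain ⟨x, hx⟩ := hB P hP
    rw [(hloc x w (hx hwP) hw).2 a b hab h1 h2, (hloc x W (hx hWP) hW).2 a b hab h3 h4]
  let g : ℂ → Fin 6 → Fin 6 → ZMod 2 := fun P a b => if a = b then 0 else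
    if h : ∃ w, w ∈ closedBall v 1 ∧ dist w P < δB / 2 ∧ a ∈ K w ∧ b ∈ K w then φ a b h.choose
    else 0
  have hg0 : ∀ P a, g P a a = 0 := fun P a => by simp [g]
  have hg1 : ∀ P ∈ closedBall v 1, ∀ a b, a ≠ b → ∀ W ∈ closedBall v 1, dist W P < δB / 2 →
      a ∈ K W → b ∈ K W → g P a b = φ a b W := by
    intro P hP a b hab W hW hWP ha hb
    have hex : ∃ w, w ∈ closedBall v 1 ∧ dist w P < δB / 2 ∧ a ∈ K w ∧ b ∈ K w :=
      ⟨W, hW, hWP, ha, hb⟩
    simp only [g, if_neg hab, dif_pos hex]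
    obtain ⟨h1, h2, h3, h4⟩ := hex.choose_spec
    exact key P hP a b hab _ h1 W hW (by linarith) (by linarith) h3 h4 ha hb
  have hW : ∀ P₁ ∈ closedBall v 1, ∃ W ∈ closedBall v 1, dist W P₁ < δB / 4 ∧
      ∀ P ∈ closedBall v 1, dist P P₁ < δA → K P ⊆ K W := by
    intro P₁ hP₁
    obtain ⟨x, hx⟩ := hA P₁ hP₁
    refine ⟨x, x.2, ?_, fun P hP hPP => ?_⟩
    · have h1 := hx (mem_ball_self hδA)
      have h2 : dist P₁ (x : ℂ) < min (r x) (δB / 4) := h1
      rw [dist_comm]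
      exact h2.trans_le (min_le_right _ _)
    · have h2 : dist P (x : ℂ) < min (r x) (δB / 4) := hx hPP
      exact (hloc x P (h2.trans_le (min_le_left _ _)) hP).1
  refine ⟨min δA (δB / 4), lt_min hδA (by positivity), g, hg0, ?_, ?_⟩
  · intro P₁ h₁ P₂ h₂ P₃ h₃ h12 h13 h23 a ha b hb c hc
    obtain ⟨W, hWD, hW1, hWK⟩ := hW P₁ h₁
    have haW : a ∈ K W := hWK P₁ h₁ (by rw [dist_self]; exact hδA) ha
    have hbW : b ∈ K W := hWK P₂ h₂ (by rw [dist_comm]; exact h12.trans_le (min_le_left _ _)) hb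
    have hcW : c ∈ K W := hWK P₃ h₃ (by rw [dist_comm]; exact h13.trans_le (min_le_left _ _)) hc
    have hW2 : dist W P₂ < δB / 2 := by
      have := dist_triangle W P₁ P₂
      have h4 := h12.trans_le (min_le_right δA (δB / 4))
      linarith
    have hW1' : dist W P₁ < δB / 2 := by linarith
    by_cases hab : a = b
    · subst hab
      by_cases hac : a = c
      · subst hac
        rw [hg0, hg0, add_zero, add_zero]
      · rw [hg0, hg1 P₂ h₂ a c hac W hWD hW2 haW hcW, hg1 P₁ h₁ a c hac W hWD hW1' haW hcW,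
          zero_add, CharTwo.add_self_eq_zero]
    · by_cases hac : a = c
      · subst hac
        rw [hg0, hg1 P₂ h₂ b a (Ne.symm hab) W hWD hW2 hbW haW,
          hg1 P₁ h₁ a b hab W hWD hW1' haW hbW, sym b a, add_zero, CharTwo.add_self_eq_zero]
      · by_cases hbc : b = c
        · subst hbc
          rw [hg0, hg1 P₁ h₁ a b hab W hWD hW1' haW hbW, add_zero, CharTwo.add_self_eq_zero]
        · rw [hg1 P₁ h₁ a b hab W hWD hW1' haW hbW, hg1 P₂ h₂ b c hbc W hWD hW2 hbW hcW,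
            hg1 P₁ h₁ a c hac W hWD hW1' haW hcW]
          exact coc W hWD a b c hab hbc hac haW hbW hcW
  · intro P₁ h₁ P₂ h₂ h12 a ha b hb hab
    obtain ⟨W, hWD, hW1, hWK⟩ := hW P₁ h₁
    have haW : a ∈ K W := hWK P₁ h₁ (by rw [dist_self]; exact hδA) ha
    have hbW : b ∈ K W := hWK P₂ h₂ (by rw [dist_comm]; exact h12.trans_le (min_le_left _ _)) hb
    exact ⟨W, hg1 P₁ h₁ a b hab W hWD (by linarith) haW hbW⟩

/-! ### the polar mesh -/

/-- mesh point: radius `i / m`, angle `2 π k / n` -/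
def pt (v : ℂ) (m n i k : ℕ) : ℂ := v + ((i / m : ℝ) : ℂ) * cis (2 * Real.pi * k / n)

theorem norm_cis (t : ℝ) : ‖cis t‖ = 1 := by
  unfold cis
  exact Complex.norm_exp_ofReal_mul_I t

theorem norm_cis_sub (s t : ℝ) : ‖cis s - cis t‖ ≤ |s - t| := by
  have e : cis s - cis t = cis t * (Complex.exp (Complex.I * ((s - t : ℝ) : ℂ)) - 1) := by
    unfold cis
    rw [mul_sub, ← Complex.exp_add, mul_one]
    congr 2
    push_cast
    ring
  rw [e, norm_mul, norm_cis, one_mul]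
  exact Real.norm_exp_I_mul_ofReal_sub_one_le

theorem cis_period (t : ℝ) : cis (t + 2 * Real.pi) = cis t := by
  unfold cis
  push_cast
  rw [add_mul, Complex.exp_add, Complex.exp_two_pi_mul_I, mul_one]

theorem pt_period (v : ℂ) {m n : ℕ} (hn : 0 < n) (i k : ℕ) : pt v m n i (k + n) = pt v m n i k := by
  unfold pt
  have hn' : (n : ℝ) ≠ 0 := by positivity
  have e : (2 * Real.pi * ((k + n : ℕ) : ℝ) / n) = 2 * Real.pi * k / n + 2 * Real.pi := by
    push_cast
    field_simp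
  rw [e, cis_period]

theorem pt_mem (v : ℂ) {m n i : ℕ} (hm : 0 < m) (hi : i ≤ m) (k : ℕ) :
    pt v m n i k ∈ closedBall v 1 := by
  have hm' : (0 : ℝ) < m := by exact_mod_cast hm
  have hi' : (i : ℝ) ≤ m := by exact_mod_cast hi
  rw [mem_closedBall, dist_eq_norm]
  unfold pt
  rw [add_sub_cancel_left, norm_mul, norm_cis, mul_one, Complex.norm_real, Real.norm_eq_abs,
    abs_of_nonneg (by positivity)]
  rw [div_le_one hm']
  exact hi'

theorem dist_pt_radial (v : ℂ) {m n : ℕ} (hm : 0 < m) (i k : ℕ) :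
    dist (pt v m n i k) (pt v m n (i + 1) k) ≤ 1 / m := by
  have hm' : (0 : ℝ) < m := by exact_mod_cast hm
  rw [dist_eq_norm]
  unfold pt
  have e : v + ((i / m : ℝ) : ℂ) * cis (2 * Real.pi * k / n) -
      (v + (((i + 1 : ℕ) / m : ℝ) : ℂ) * cis (2 * Real.pi * k / n)) =
      ((-(1 / m) : ℝ) : ℂ) * cis (2 * Real.pi * k / n) := by
    push_cast
    ring
  rw [e, norm_mul, norm_cis, mul_one, Complex.norm_real, norm_neg, Real.norm_eq_abs,
    abs_of_nonneg (by positivity)]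

theorem dist_pt_angular (v : ℂ) {m n : ℕ} (hm : 0 < m) (hn : 0 < n) {i : ℕ} (hi : i ≤ m) (k : ℕ) :
    dist (pt v m n i k) (pt v m n i (k + 1)) ≤ 2 * Real.pi / n := by
  have hm' : (0 : ℝ) < m := by exact_mod_cast hm
  have hn' : (0 : ℝ) < n := by exact_mod_cast hn
  have hi' : (i : ℝ) ≤ m := by exact_mod_cast hi
  rw [dist_eq_norm]
  unfold pt
  rw [add_sub_add_left_eq_sub, ← mul_sub, norm_mul, Complex.norm_real, Real.norm_eq_abs,
    abs_of_nonneg (by positivity)]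
  have h1 : (i / m : ℝ) ≤ 1 := by rw [div_le_one hm']; exact hi'
  have h2 := norm_cis_sub (2 * Real.pi * k / n) (2 * Real.pi * ((k + 1 : ℕ) : ℝ) / n)
  have h3 : |2 * Real.pi * k / n - 2 * Real.pi * ((k + 1 : ℕ) : ℝ) / n| = 2 * Real.pi / n := by
    have : 2 * Real.pi * k / n - 2 * Real.pi * ((k + 1 : ℕ) : ℝ) / n = -(2 * Real.pi / n) := by
      push_cast
      field_simp
      ring
    rw [this, abs_neg, abs_of_nonneg (by positivity)]
  rw [h3] at h2
  calc (i / m : ℝ) * ‖cis (2 * Real.pi * k / n) - cis (2 * Real.pi * ((k + 1 : ℕ) : ℝ) / n)‖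
      ≤ 1 * (2 * Real.pi / n) := by gcongr
    _ = _ := one_mul _

/-- **mesh sum**: a locally constant cocycle on the closed cover has even ring sum -/
theorem mesh_even (usc : ∀ x, ∀ᶠ y in 𝓝 x, K y ⊆ K x)
    (ne : ∀ x ∈ closedBall v 1, (K x).Nonempty)
    (sym : ∀ i j x, φ i j x = φ j i x)
    (loc : ∀ i j, i ≠ j → ∀ x ∈ closedBall v 1, i ∈ K x → j ∈ K x →
      ∀ᶠ y in 𝓝 x, y ∈ closedBall v 1 → i ∈ K y → j ∈ K y → φ i j y = φ i j x)
    (coc : ∀ x ∈ closedBall v 1, ∀ i j k, i ≠ j → j ≠ k → i ≠ k → i ∈ K x → j ∈ K x → k ∈ K x →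
      φ i j x + φ j k x + φ i k x = 0) :
    ∃ N, ∀ n ≥ N, ∀ h : ℕ → Fin 6, (∀ k, h (k + n) = h k) →
      (∀ k : ℕ, h k ∈ K (v + cis (2 * Real.pi * k / n))) → ∀ c : Fin 6 → Fin 6 → ZMod 2,
      (∀ k, h k ≠ h (k + 1) → ∀ x, φ (h k) (h (k + 1)) x = c (h k) (h (k + 1))) →
      ∑ k ∈ Finset.range n, (if h k = h (k + 1) then 0 else c (h k) (h (k + 1))) = 0 := by
  classical
  obtain ⟨δ, hδ, g, g0, g3, gφ⟩ := glob usc sym loc coc
  obtain ⟨N, hN⟩ := exists_nat_gt (max 1 (8 * (2 * Real.pi + 1) / δ))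
  refine ⟨N, fun n hn h hper hmem c hc => ?_⟩
  have hN1 : (1 : ℝ) < N := (le_max_left _ _).trans_lt hN
  have hnN : (N : ℝ) ≤ n := by exact_mod_cast hn
  have hn0 : 0 < n := by
    have : (0 : ℝ) < n := by linarith
    exact_mod_cast this
  have hn0' : (0 : ℝ) < n := by exact_mod_cast hn0
  have hpi := Real.pi_pos
  have hsmall : (2 * Real.pi + 1) / n < δ / 8 := by
    have h1 : 8 * (2 * Real.pi + 1) / δ < n := ((le_max_right _ _).trans_lt hN).trans_le hnN
    rw [div_lt_iff₀ hδ] at h1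
    rw [div_lt_iff₀ hn0']
    linarith
  have hs1 : 1 / (n : ℝ) < δ / 4 := by
    have : 1 / (n : ℝ) ≤ (2 * Real.pi + 1) / n := by gcongr; linarith
    linarith
  have hs2 : 2 * Real.pi / (n : ℝ) < δ / 4 := by
    have : 2 * Real.pi / (n : ℝ) ≤ (2 * Real.pi + 1) / n := by gcongr; linarith
    linarith
  -- labels
  have hlab : ∀ P : ℂ, ∃ a, P ∈ closedBall v 1 → a ∈ K P := fun P => by
    by_cases hP : P ∈ closedBall v 1
    · obtain ⟨a, ha⟩ := ne P hP
      exact ⟨a, fun _ => ha⟩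
    · exact ⟨0, fun h => absurd h hP⟩
  choose lab hlab using hlab
  let P : ℕ → ℕ → ℂ := fun i k => pt v n n i k
  let l : ℕ → ℕ → Fin 6 := fun i k => if i = n then h k else lab (P i k)
  have hPD : ∀ i ≤ n, ∀ k, P i k ∈ closedBall v 1 := fun i hi k => pt_mem v hn0 hi k
  have hring : ∀ k : ℕ, P n k = v + cis (2 * Real.pi * k / n) := by
    intro k
    simp only [P, pt]
    rw [div_self hn0'.ne', Complex.ofReal_one, one_mul]
  have hlK : ∀ i ≤ n, ∀ k, l i k ∈ K (P i k) := by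
    intro i hi k
    simp only [l]
    by_cases hin : i = n
    · subst hin
      rw [if_pos rfl, hring]
      exact hmem k
    · rw [if_neg hin]
      exact hlab _ (hPD i hi k)
  have hPper : ∀ i k, P i (k + n) = P i k := fun i k => pt_period v hn0 i k
  have hlper : ∀ i k, l i (k + n) = l i k := by
    intro i k
    simp only [l]
    by_cases hin : i = n
    · rw [if_pos hin, if_pos hin, hper]
    · rw [if_neg hin, if_neg hin, hPper]
  have hdr : ∀ i k, dist (P i k) (P (i + 1) k) ≤ 1 / n := fun i k => dist_pt_radial v hn0 i k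
  have hda : ∀ i ≤ n, ∀ k, dist (P i k) (P i (k + 1)) ≤ 2 * Real.pi / n :=
    fun i hi k => dist_pt_angular v hn0 hn0 hi k
  -- one cell
  let e1 : ℕ → ℕ → ZMod 2 := fun i k => g (P i k) (l i k) (l (i + 1) k)
  let e2 : ℕ → ℕ → ZMod 2 := fun i k => g (P i k) (l i k) (l i (k + 1))
  let e3 : ℕ → ℕ → ZMod 2 := fun i k => g (P i k) (l i k) (l (i + 1) (k + 1))
  have hcell : ∀ i < n, ∀ k, e2 (i + 1) k = e2 i k + e1 i k + e1 i (k + 1) := by
    intro i hi k
    have d1 := hdr i k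
    have d2 := hdr i (k + 1)
    have d3 := hda i hi.le k
    have d4 := hda (i + 1) hi k
    have t1 := dist_triangle (P i k) (P (i + 1) k) (P (i + 1) (k + 1))
    have a1 := g3 (P i k) (hPD i hi.le k) (P (i + 1) k) (hPD _ hi k) (P (i + 1) (k + 1))
      (hPD _ hi _) (by linarith) (by linarith) (by linarith) _ (hlK i hi.le k) _ (hlK _ hi k) _
      (hlK _ hi _)
    have a2 := g3 (P i k) (hPD i hi.le k) (P i (k + 1)) (hPD _ hi.le _) (P (i + 1) (k + 1))
      (hPD _ hi _) (by linarith) (by linarith) (by linarith) _ (hlK i hi.le k) _ (hlK _ hi.le _) _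
      (hlK _ hi _)
    have b1 : e1 i k + e2 (i + 1) k + e3 i k = 0 := a1
    have b2 : e2 i k + e1 i (k + 1) + e3 i k = 0 := a2
    revert b1 b2
    generalize e1 i k = x1
    generalize e2 (i + 1) k = x2
    generalize e3 i k = x3
    generalize e2 i k = x4
    generalize e1 i (k + 1) = x5
    revert x1 x2 x3 x4 x5
    decide
  have hsum : ∀ i ≤ n, ∑ k ∈ Finset.range n, e2 i k = 0 := by
    intro i
    induction i with
    | zero =>
      intro _
      refine Finset.sum_eq_zero fun k _ => ?_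
      have hP0 : ∀ k, P 0 k = v := fun k => by simp [P, pt]
      have hl0 : ∀ k, l 0 k = l 0 0 := by
        intro k
        simp only [l, if_neg hn0.ne, hP0]
      show g (P 0 k) (l 0 k) (l 0 (k + 1)) = 0
      rw [hl0 k, hl0 (k + 1), g0]
    | succ i ih =>
      intro hi
      have hi' : i < n := hi
      rw [Finset.sum_congr rfl fun k _ => hcell i hi' k, Finset.sum_add_distrib,
        Finset.sum_add_distrib, ih hi'.le, zero_add]
      have h5 : ∑ k ∈ Finset.range n, e1 i (k + 1) + e1 i 0 =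
          ∑ k ∈ Finset.range n, e1 i k + e1 i n := by
        rw [← Finset.sum_range_succ', Finset.sum_range_succ]
      have h6 : e1 i n = e1 i 0 := by
        have h7 := hPper i 0
        have h8 := hlper i 0
        have h9 := hlper (i + 1) 0
        rw [zero_add] at h7 h8 h9
        simp only [e1]
        rw [h7, h8, h9]
      rw [h6] at h5
      rw [add_right_cancel h5, CharTwo.add_self_eq_zero]
  refine Eq.trans (Finset.sum_congr rfl fun k _ => ?_) (hsum n le_rfl)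
  have hln : ∀ k, l n k = h k := fun k => by simp [l]
  show _ = g (P n k) (l n k) (l n (k + 1))
  rw [hln, hln]
  by_cases hk : h k = h (k + 1)
  · rw [if_pos hk, hk, g0]
  · rw [if_neg hk]
    have hk1 := hlK n le_rfl k
    have hk2 := hlK n le_rfl (k + 1)
    rw [hln] at hk1 hk2
    obtain ⟨w, hw⟩ := gφ (P n k) (hPD n le_rfl k) (P n (k + 1)) (hPD n le_rfl (k + 1))
      (by have := hda n le_rfl k; linarith) (h k) hk1 (h (k + 1)) hk2 hk
    rw [hw, hc k hk w]

end Vale.Agent.P032.S5.End
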