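import Vale.Agent.P032.S5.H11.TabN

/-!
# P032, block S5, (L-T): the finite table (for chains `Finset (Fin 6) → ZMod 2`)
-/

namespace Vale.Agent.P032.S5.Tab

open Finset

/-- mod-2 chains: only the values on the 3-subsets matter -/
abbrev Ch := Finset (Fin 6) → ZMod 2

/-- mod-2 cycle of the 2-skeleton of the 5-simplex -/
def IsCyc (z : Ch) : Prop := ∀ e : Finset (Fin 6), e.card = 2 → ∑ l ∈ eᶜ, z (insert l e) = 0

/-- boundary of the tetrahedron `q` -/
def bd (q : Finset (Fin 6)) : Ch := fun s => if s ⊆ q then 1 else 0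

/-- admissible state of type `T` -/
def Adm (T : Finset (Fin 6)) (z : Ch) : Prop :=
  IsCyc z ∧ z Tᶜ = 1 ∧ ∀ s : Finset (Fin 6), s.card = 3 → z s = 0 ∨ z sᶜ = 0

/-- the set with mask `m` -/
def unm (m : ℕ) : Finset (Fin 6) := univ.filter (fun i => m.testBit (i : ℕ))

/-- the mask of a set -/
def msk (s : Finset (Fin 6)) : ℕ := ∑ i ∈ s, 2 ^ (i : ℕ)

/-- values on masks -/
def toB (z : Ch) : ℕ → Bool := fun m => z (unm m) == 1

lemma unm_msk : ∀ s : Finset (Fin 6), unm (msk s) = s := by decide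

lemma msk_trips : ∀ s : Finset (Fin 6), s.card = 3 → msk s ∈ trips := by decide

lemma msk_pairs : ∀ s : Finset (Fin 6), s.card = 2 → msk s ∈ pairs := by decide

lemma card_unm_trips : ∀ m ∈ trips, (unm m).card = 3 := by decide

lemma unm_compl : ∀ m ∈ trips, unm (63 - m) = (unm m)ᶜ := by decide

lemma compl_trips : ∀ m ∈ trips, 63 - m ∈ trips := by decide

lemma cyc4 {z : Ch} (h : IsCyc z) (e : Finset (Fin 6)) (he : e.card = 2) (a b c d : Fin 6)
    (hc : eᶜ = {a, b, c, d}) (hd : a ∉ ({b, c, d} : Finset (Fin 6)) ∧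
      b ∉ ({c, d} : Finset (Fin 6)) ∧ c ∉ ({d} : Finset (Fin 6)))
    (A B C D : Finset (Fin 6)) (hA : insert a e = A) (hB : insert b e = B) (hC : insert c e = C)
    (hD : insert d e = D) : z A + (z B + (z C + z D)) = 0 := by
  have := h e he
  rw [hc, sum_insert hd.1, sum_insert hd.2.1, sum_insert hd.2.2, sum_singleton, hA, hB, hC, hD] at this
  exact this

lemma z2 : ∀ x y u w : ZMod 2, x + (y + (u + w)) = 0 →
    (x == 1) = xor (y == 1) (xor (u == 1) (w == 1)) := by decide

/-- the code of ten bits -/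
def code (b0 b1 b2 b3 b4 b5 b6 b7 b8 b9 : Bool) : ℕ :=
  b0.toNat + 2 * (b1.toNat + 2 * (b2.toNat + 2 * (b3.toNat + 2 * (b4.toNat + 2 * (b5.toNat +
    2 * (b6.toNat + 2 * (b7.toNat + 2 * (b8.toNat + 2 * b9.toNat))))))))

/-- values of the cycle with free values `b0 … b9` -/
def ofBits (b0 b1 b2 b3 b4 b5 b6 b7 b8 b9 : Bool) : ℕ → Bool
  | 7 => xor b0 (xor b1 b4)
  | 11 => xor b0 (xor b2 b5)
  | 13 => xor b0 (xor b3 b6)
  | 14 => b0
  | 19 => xor b1 (xor b2 b7)
  | 21 => xor b1 (xor b3 b8)
  | 22 => b1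
  | 25 => xor b2 (xor b3 b9)
  | 26 => b2
  | 28 => b3
  | 35 => xor b4 (xor b5 b7)
  | 37 => xor b4 (xor b6 b8)
  | 38 => b4
  | 41 => xor b5 (xor b6 b9)
  | 42 => b5
  | 44 => b6
  | 49 => xor b7 (xor b8 b9)
  | 50 => b7
  | 52 => b8
  | 56 => b9
  | _ => false

lemma code_spec : ∀ b0 b1 b2 b3 b4 b5 b6 b7 b8 b9 : Bool,
    (decide (code b0 b1 b2 b3 b4 b5 b6 b7 b8 b9 < 1024) &&
      trips.all (fun m => (cycN (code b0 b1 b2 b3 b4 b5 b6 b7 b8 b9)).testBit m ==
        ofBits b0 b1 b2 b3 b4 b5 b6 b7 b8 b9 m)) = true := by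
  decide +kernel

/-- every cycle has a code -/
lemma exists_code {z : Ch} (h : IsCyc z) :
    ∃ c < 1024, ∀ m ∈ trips, toB z m = (cycN c).testBit m := by
  have r7 : z (unm 7) + (z (unm 14) + (z (unm 22) + z (unm 38))) = 0 :=
    cyc4 h (unm 6) (by decide) 0 3 4 5 (by decide) (by decide) _ _ _ _ (by decide) (by decide) (by decide) (by decide)
  have r11 : z (unm 11) + (z (unm 14) + (z (unm 26) + z (unm 42))) = 0 :=
    cyc4 h (unm 10) (by decide) 0 2 4 5 (by decide) (by decide) _ _ _ _ (by decide) (by decide) (by decide) (by decide)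
  have r13 : z (unm 13) + (z (unm 14) + (z (unm 28) + z (unm 44))) = 0 :=
    cyc4 h (unm 12) (by decide) 0 1 4 5 (by decide) (by decide) _ _ _ _ (by decide) (by decide) (by decide) (by decide)
  have r19 : z (unm 19) + (z (unm 22) + (z (unm 26) + z (unm 50))) = 0 :=
    cyc4 h (unm 18) (by decide) 0 2 3 5 (by decide) (by decide) _ _ _ _ (by decide) (by decide) (by decide) (by decide)
  have r21 : z (unm 21) + (z (unm 22) + (z (unm 28) + z (unm 52))) = 0 :=
    cyc4 h (unm 20) (by decide) 0 1 3 5 (by decide) (by decide) _ _ _ _ (by decide) (by decide) (by decide) (by decide)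
  have r25 : z (unm 25) + (z (unm 26) + (z (unm 28) + z (unm 56))) = 0 :=
    cyc4 h (unm 24) (by decide) 0 1 2 5 (by decide) (by decide) _ _ _ _ (by decide) (by decide) (by decide) (by decide)
  have r35 : z (unm 35) + (z (unm 38) + (z (unm 42) + z (unm 50))) = 0 :=
    cyc4 h (unm 34) (by decide) 0 2 3 4 (by decide) (by decide) _ _ _ _ (by decide) (by decide) (by decide) (by decide)
  have r37 : z (unm 37) + (z (unm 38) + (z (unm 44) + z (unm 52))) = 0 :=
    cyc4 h (unm 36) (by decide) 0 1 3 4 (by decide) (by decide) _ _ _ _ (by decide) (by decide) (by decide) (by decide)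
  have r41 : z (unm 41) + (z (unm 42) + (z (unm 44) + z (unm 56))) = 0 :=
    cyc4 h (unm 40) (by decide) 0 1 2 4 (by decide) (by decide) _ _ _ _ (by decide) (by decide) (by decide) (by decide)
  have r49 : z (unm 49) + (z (unm 50) + (z (unm 52) + z (unm 56))) = 0 :=
    cyc4 h (unm 48) (by decide) 0 1 2 3 (by decide) (by decide) _ _ _ _ (by decide) (by decide) (by decide) (by decide)
  have hs := code_spec (z (unm 14) == 1) (z (unm 22) == 1) (z (unm 26) == 1) (z (unm 28) == 1)
    (z (unm 38) == 1) (z (unm 42) == 1) (z (unm 44) == 1) (z (unm 50) == 1) (z (unm 52) == 1)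
    (z (unm 56) == 1)
  rw [Bool.and_eq_true, decide_eq_true_eq, List.all_eq_true] at hs
  refine ⟨_, hs.1, fun m hm => ?_⟩
  have h1 := hs.2 m hm
  rw [beq_iff_eq] at h1
  rw [h1]
  simp only [trips, List.mem_cons, List.not_mem_nil, or_false] at hm
  rcases hm with rfl | rfl | rfl | rfl | rfl | rfl | rfl | rfl | rfl | rfl | rfl | rfl | rfl | rfl |
    rfl | rfl | rfl | rfl | rfl | rfl
  · exact z2 _ _ _ _ r7
  · exact z2 _ _ _ _ r11
  · exact z2 _ _ _ _ r13
  · rfl
  · exact z2 _ _ _ _ r19
  · exact z2 _ _ _ _ r21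
  · rfl
  · exact z2 _ _ _ _ r25
  · rfl
  · rfl
  · exact z2 _ _ _ _ r35
  · exact z2 _ _ _ _ r37
  · rfl
  · exact z2 _ _ _ _ r41
  · rfl
  · rfl
  · exact z2 _ _ _ _ r49
  · rfl
  · rfl
  · rfl

/-! ### congruence -/

lemma all_congr' {L : List ℕ} {f g : ℕ → Bool} (h : ∀ m ∈ L, f m = g m) : L.all f = L.all g := by
  rw [Bool.eq_iff_iff, List.all_eq_true, List.all_eq_true]
  exact forall₂_congr fun m hm => by rw [h m hm]

lemma admN_congr {B B' : ℕ → Bool} (h : ∀ m ∈ trips, B m = B' m) {T : ℕ} (hT : T ∈ trips) :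
    admN T B = admN T B' := by
  unfold admN
  rw [h _ (compl_trips T hT)]
  congr 1
  exact all_congr' fun m hm => by rw [h m hm, h _ (compl_trips m hm)]

lemma forcedN_congr {B B' : ℕ → Bool} (h : ∀ m ∈ trips, B m = B' m) (p T : ℕ) :
    forcedN p T B = forcedN p T B' := by
  unfold forcedN
  refine all_congr' fun m hm => ?_
  rw [admN_congr (B := addb (63 - p) B) (B' := addb (63 - p) B')
    (fun s hs => by unfold addb; rw [h s hs]) hm]

lemma agree_congr {B B' : ℕ → Bool} {p : ℕ}
    (h : ∀ m ∈ trips, Nat.land m p ≠ 0 → B m = B' m) (key : ℕ) :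
    agree p B key = agree p B' key := by
  unfold agree
  refine all_congr' fun m hm => ?_
  by_cases h0 : Nat.land m p = 0
  · have h1 : (Nat.land m p == 0) = true := by rw [h0]; rfl
    rw [h1, Bool.true_or, Bool.true_or]
  · rw [h m hm h0]

lemma psiN_congr {B B' : ℕ → Bool} {p : ℕ}
    (h : ∀ m ∈ trips, Nat.land m p ≠ 0 → B m = B' m) : psiN p B = psiN p B' := by
  unfold psiN
  rw [show agree p B = agree p B' from funext fun k => agree_congr h k]

lemma val0_congr {B B' : ℕ → Bool} (h : ∀ m ∈ trips, B m = B' m) (q T : ℕ) :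
    val0 q T B = val0 q T B' := by
  unfold val0
  rw [forcedN_congr h, psiN_congr fun m hm _ => h m hm]

lemma chiN_congr {B B' : ℕ → Bool} (h : ∀ m ∈ trips, B m = B' m) (p T : ℕ) :
    chiN p T B = chiN p T B' := by
  unfold chiN
  rw [show (fun q => forcedN q T B && !(Nat.land q 7 == q)) =
      (fun q => forcedN q T B' && !(Nat.land q 7 == q)) from
      funext fun q => by rw [forcedN_congr h],
    show (fun q => val0 q T B) = (fun q => val0 q T B') from funext fun q => val0_congr h q T]

lemma PhiN_congr {B B' : ℕ → Bool} (h : ∀ m ∈ trips, B m = B' m) (p T : ℕ) :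
    PhiN p T B = PhiN p T B' := by
  unfold PhiN
  rw [forcedN_congr h, chiN_congr h, psiN_congr fun m hm _ => h m hm]

/-! ### the table for chains -/

lemma adm_admN {T : Finset (Fin 6)} (hT : T.card = 3) {z : Ch} (h : Adm T z) :
    admN (msk T) (toB z) = true := by
  obtain ⟨-, h1, h2⟩ := h
  have hm := msk_trips T hT
  unfold admN
  rw [Bool.and_eq_true, List.all_eq_true]
  refine ⟨?_, fun m hm' => ?_⟩
  · unfold toB
    rw [unm_compl _ hm, unm_msk, h1]
    rfl
  · unfold toB
    rw [unm_compl _ hm']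
    rcases h2 (unm m) (card_unm_trips m hm') with h | h
    · rw [h]; rfl
    · rw [h]; simp

/-- the pair `p` is forced for the state `(T, z)` -/
def Forced (p T : Finset (Fin 6)) (z : Ch) : Prop := forcedN (msk p) (msk T) (toB z) = true

instance (p T : Finset (Fin 6)) (z : Ch) : Decidable (Forced p T z) := by
  unfold Forced; infer_instance

/-- value of the class label over `p` -/
def psi (p : Finset (Fin 6)) (z : Ch) : ZMod 2 := if psiN (msk p) (toB z) = true then 1 else 0

/-- value of the forced label over `p` -/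
def chi (p T : Finset (Fin 6)) (z : Ch) : ZMod 2 :=
  if chiN (msk p) (msk T) (toB z) = true then 1 else 0

lemma toB_add_bd (z : Ch) {p : Finset (Fin 6)} (m : ℕ) (hp : p.card = 2) (hm : m ∈ trips) :
    toB (fun s => z s + bd pᶜ s) m = addb (63 - msk p) (toB z) m := by
  have key : ∀ p : Finset (Fin 6), p.card = 2 → ∀ m ∈ trips,
      (Nat.land m (63 - msk p) == m) = decide (unm m ⊆ pᶜ) := by decide
  unfold toB addb
  rw [key p hp m hm]
  unfold bd
  beta_reduce
  by_cases h : unm m ⊆ pᶜ
  · rw [if_pos h, decide_eq_true h]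
    generalize z (unm m) = x
    revert x
    decide
  · rw [if_neg h, decide_eq_false h]
    simp

/-- **forced pairs** -/
theorem forced_spec {p T : Finset (Fin 6)} {z : Ch} (hp : p.card = 2) (hT : T.card = 3)
    (hpT : p ⊆ T) (h : Forced p T z) {l : Fin 6} (hl : l ∉ T) :
    ¬ Adm (insert l p) (fun s => z s + bd pᶜ s) := by
  intro ha
  have hl' : l ∉ p := fun h => hl (hpT h)
  have hc : (insert l p).card = 3 := by rw [card_insert_of_notMem hl', hp]
  have h1 := adm_admN hc ha
  have h2 : admN (msk (insert l p)) (addb (63 - msk p) (toB z)) = true := by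
    rw [← h1]
    exact (admN_congr (fun m hm => toB_add_bd z m hp hm) (msk_trips _ hc)).symm
  unfold Forced forcedN at h
  rw [List.all_eq_true] at h
  have h3 := h _ (msk_trips _ hc)
  have k1 : ∀ p : Finset (Fin 6), ∀ l : Fin 6, (Nat.land (msk (insert l p)) (msk p) == msk p) = true := by
    decide
  have k2 : (msk (insert l p) == msk T) = false := by
    rw [beq_eq_false_iff_ne]
    intro he
    have : insert l p = T := by rw [← unm_msk (insert l p), he, unm_msk]
    exact hl (this ▸ mem_insert_self l p)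
  rw [k1, k2, h2] at h3
  exact absurd h3 (by decide)

theorem IsCyc.congr {z z' : Ch} (h : ∀ s : Finset (Fin 6), s.card = 3 → z s = z' s)
    (hz : IsCyc z) : IsCyc z' := fun e he => by
  rw [← hz e he]
  refine sum_congr rfl fun l hl => (h _ ?_).symm
  rw [card_insert_of_notMem (mem_compl.1 hl), he]

theorem Adm.congr {T : Finset (Fin 6)} (hT : T.card = 3) {z z' : Ch}
    (h : ∀ s : Finset (Fin 6), s.card = 3 → z s = z' s) (hz : Adm T z) : Adm T z' := by
  obtain ⟨h1, h2, h3⟩ := hz
  have hc : ∀ s : Finset (Fin 6), s.card = 3 → sᶜ.card = 3 := fun s hs => by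
    rw [card_compl, hs]; rfl
  refine ⟨h1.congr h, by rw [← h _ (hc T hT)]; exact h2, fun s hs => ?_⟩
  rw [← h s hs, ← h _ (hc s hs)]
  exact h3 s hs

/-- two 3-points (states `(T, z)`, `(T₂, z₂)`) of one component of `C_p`, the first one forced:
the types agree (`rule` = 410's RULE) -/
theorem forced_unique {p T T₂ : Finset (Fin 6)} {z z₂ : Ch} (hp : p.card = 2) (hT : T.card = 3)
    (hT₂ : T₂.card = 3) (hpT : p ⊆ T) (hpT₂ : p ⊆ T₂) (hF : Forced p T z) (hA : Adm T₂ z₂)
    (rule : T₂ ≠ T → ∀ s : Finset (Fin 6), s.card = 3 → z₂ s = z s + bd pᶜ s) : T₂ = T := by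
  by_contra hne
  obtain ⟨l, hl, hlT⟩ : ∃ l ∈ T₂, l ∉ T := by
    by_contra hc
    push Not at hc
    exact hne (eq_of_subset_of_card_le (fun l hl => hc l hl) (by rw [hT, hT₂]))
  have hl' : l ∉ p := fun h => hlT (hpT h)
  have e : insert l p = T₂ := eq_of_subset_of_card_le (insert_subset hl hpT₂)
    (by rw [card_insert_of_notMem hl', hp, hT₂])
  refine forced_spec hp hT hpT hF hlT ?_
  rw [e]
  exact hA.congr hT₂ (rule hne)

theorem psi_congr {p : Finset (Fin 6)} {z z' : Ch} (hp : p.card = 2)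
    (h : ∀ s : Finset (Fin 6), s.card = 3 → ¬ Disjoint s p → z s = z' s) : psi p z = psi p z' := by
  unfold psi
  have key : ∀ p : Finset (Fin 6), p.card = 2 → ∀ m ∈ trips, Nat.land m (msk p) ≠ 0 →
      ¬ Disjoint (unm m) p := by decide
  rw [psiN_congr fun m hm h0 => ?_]
  unfold toB
  rw [h (unm m) (card_unm_trips m hm) (key p hp m hm h0)]

lemma toB_congr {z z' : Ch} (h : ∀ s : Finset (Fin 6), s.card = 3 → z s = z' s) :
    ∀ m ∈ trips, toB z m = toB z' m := fun m hm => by
  unfold toB; rw [h (unm m) (card_unm_trips m hm)]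

theorem chi_congr {p T : Finset (Fin 6)} {z z' : Ch}
    (h : ∀ s : Finset (Fin 6), s.card = 3 → z s = z' s) : chi p T z = chi p T z' := by
  unfold chi
  rw [chiN_congr (toB_congr h)]

theorem forced_congr {p T : Finset (Fin 6)} {z z' : Ch}
    (h : ∀ s : Finset (Fin 6), s.card = 3 → z s = z' s) : Forced p T z ↔ Forced p T z' := by
  unfold Forced
  rw [forcedN_congr (toB_congr h)]

/-- value of the label over `p` at a 3-point of state `(T, z)` -/
def Phi (p T : Finset (Fin 6)) (z : Ch) : ZMod 2 := if Forced p T z then chi p T z else psi p z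

lemma Phi_eq (p T : Finset (Fin 6)) (z : Ch) :
    Phi p T z = if PhiN (msk p) (msk T) (toB z) = true then 1 else 0 := by
  unfold Phi PhiN Forced chi psi
  by_cases h : forcedN (msk p) (msk T) (toB z) = true
  · simp [h]
  · simp [h]

lemma prs_spec : ∀ m ∈ trips, ((unm m).powersetCard 2 =
    {unm ((prs m).getD 0 0), unm ((prs m).getD 1 0), unm ((prs m).getD 2 0)} ∧
    prs m = [(prs m).getD 0 0, (prs m).getD 1 0, (prs m).getD 2 0] ∧
    msk (unm ((prs m).getD 0 0)) = (prs m).getD 0 0 ∧ msk (unm ((prs m).getD 1 0)) = (prs m).getD 1 0 ∧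
    msk (unm ((prs m).getD 2 0)) = (prs m).getD 2 0) ∧
    unm ((prs m).getD 0 0) ∉ ({unm ((prs m).getD 1 0), unm ((prs m).getD 2 0)} :
      Finset (Finset (Fin 6))) ∧
    unm ((prs m).getD 1 0) ∉ ({unm ((prs m).getD 2 0)} : Finset (Finset (Fin 6))) := by
  decide +kernel

/-- **(i)** the cocycle identity at every 3-point whose type is not `{0,1,2}` -/
theorem sum_Phi {T : Finset (Fin 6)} {z : Ch} (hT : T.card = 3) (hT' : T ≠ {0, 1, 2})
    (h : Adm T z) : ∑ p ∈ T.powersetCard 2, Phi p T z = 0 := by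
  obtain ⟨c, hc, hcode⟩ := exists_code h.1
  have hm := msk_trips T hT
  have h1 := adm_admN hT h
  have h2 := chk_all c hc
  unfold chk at h2
  rw [List.all_eq_true] at h2
  have h3 := h2 _ hm
  have h4 : admN (msk T) (fun s => (cycN c).testBit s) = true := by
    rw [← h1]
    exact (admN_congr hcode hm).symm
  have h5 : (msk T == 7) = false := by
    rw [beq_eq_false_iff_ne]
    intro he
    apply hT'
    rw [← unm_msk T, he]
    decide
  simp only [h4, h5, Bool.not_true, Bool.false_or, Bool.not_eq_true'] at h3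
  obtain ⟨⟨e1, e2, e3, e4, e5⟩, n1, n2⟩ := prs_spec _ hm
  rw [unm_msk] at e1
  rw [e1, sum_insert n1, sum_insert n2, sum_singleton, Phi_eq, Phi_eq, Phi_eq, e3, e4, e5]
  rw [e2] at h3
  simp only [List.map_cons, List.map_nil, List.foldr_cons, List.foldr_nil] at h3
  have e : ∀ p, PhiN p (msk T) (fun s => (cycN c).testBit s) = PhiN p (msk T) (toB z) :=
    fun p => (PhiN_congr hcode p _).symm
  rw [e, e, e] at h3
  revert h3
  generalize PhiN ((prs (msk T)).getD 0 0) (msk T) (toB z) = x
  generalize PhiN ((prs (msk T)).getD 1 0) (msk T) (toB z) = y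
  generalize PhiN ((prs (msk T)).getD 2 0) (msk T) (toB z) = w
  revert x y w
  decide

/-- **(ii)** -/
theorem psi_01 (z : Ch) : psi {0, 1} z = 1 := by
  unfold psi
  rw [show msk {0, 1} = 3 from by decide]
  simp [psiN]

theorem psi_02 (z : Ch) : psi {0, 2} z = 0 := by
  unfold psi
  rw [show msk {0, 2} = 5 from by decide]
  simp [psiN, keys]

theorem psi_12 (z : Ch) : psi {1, 2} z = 0 := by
  unfold psi
  rw [show msk {1, 2} = 6 from by decide]
  simp [psiN, keys]

theorem chi_01 (T : Finset (Fin 6)) (z : Ch) : chi {0, 1} T z = 1 := by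
  unfold chi
  rw [show msk {0, 1} = 3 from by decide]
  simp [chiN]

theorem chi_02 (T : Finset (Fin 6)) (z : Ch) : chi {0, 2} T z = 0 := by
  unfold chi
  rw [show msk {0, 2} = 5 from by decide]
  simp [chiN]

theorem chi_12 (T : Finset (Fin 6)) (z : Ch) : chi {1, 2} T z = 0 := by
  unfold chi
  rw [show msk {1, 2} = 6 from by decide]
  simp [chiN]

/-- the class label only sees `z` modulo the boundary of `pᶜ` -/
theorem psi_add_bd {p : Finset (Fin 6)} (hp : p.card = 2) (z : Ch) :
    psi p (fun s => z s + bd pᶜ s) = psi p z := by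
  refine psi_congr hp fun s _ hs => ?_
  have : ¬ s ⊆ pᶜ := fun h => hs (disjoint_left.2 fun a ha => mem_compl.1 (h ha))
  simp [bd, this]

/-- boundaries are cycles -/
theorem isCyc_bd {q : Finset (Fin 6)} (hq : q.card = 4) : IsCyc (bd q) := by
  have : ∀ q : Finset (Fin 6), q.card = 4 → ∀ e : Finset (Fin 6), e.card = 2 →
      ∑ l ∈ eᶜ, (if insert l e ⊆ q then (1 : ZMod 2) else 0) = 0 := by decide +kernel
  exact this q hq

theorem IsCyc.add {z z' : Ch} (h : IsCyc z) (h' : IsCyc z') : IsCyc (fun s => z s + z' s) :=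
  fun e he => by rw [sum_add_distrib, h e he, h' e he, add_zero]

/-! ### parity lemma -/

lemma z2mul : ∀ x y : ZMod 2, x * y = if ((x == 1) && (y == 1)) = true then 1 else 0 := by decide

/-- **parity lemma**: the number of complementary pairs in a cycle is even -/
theorem parity {z : Ch} (h : IsCyc z) :
    ∑ s ∈ (powersetCard 3 univ).filter (fun s : Finset (Fin 6) => (0 : Fin 6) ∈ s),
      z s * z sᶜ = 0 := by
  obtain ⟨c, hc, hcode⟩ := exists_code h
  have h2 := par_all c hc
  unfold parN at h2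
  have e : (powersetCard 3 univ).filter (fun s : Finset (Fin 6) => (0 : Fin 6) ∈ s) =
      ([7, 11, 13, 19, 21, 25, 35, 37, 41, 49].map unm).toFinset := by decide +kernel
  have hn : ([7, 11, 13, 19, 21, 25, 35, 37, 41, 49].map unm).Nodup := by decide +kernel
  rw [e, List.sum_toFinset _ hn, List.map_map]
  have key : ∀ m ∈ [7, 11, 13, 19, 21, 25, 35, 37, 41, 49],
      ((fun s => z s * z sᶜ) ∘ unm) m =
        (fun b : Bool => if b = true then (1 : ZMod 2) else 0)
          ((fun s => (cycN c).testBit s && (cycN c).testBit (63 - s)) m) := by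
    intro m hm
    have hm' : m ∈ trips := by
      revert hm
      revert m
      decide
    have hb : ((z (unm m) == 1) && (z (unm m)ᶜ == 1)) =
        ((cycN c).testBit m && (cycN c).testBit (63 - m)) := by
      rw [← hcode m hm', ← hcode _ (compl_trips m hm')]
      unfold toB
      rw [unm_compl m hm']
    simp only [Function.comp]
    rw [z2mul, hb]
  rw [List.map_congr_left key]
  have gen : ∀ L : List Bool, (L.map (fun b : Bool => if b = true then (1 : ZMod 2) else 0)).sum =
      if (L.foldr xor false) = true then 1 else 0 := by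
    intro L
    induction L with
    | nil => rfl
    | cons b L ih =>
      rw [List.map_cons, List.sum_cons, ih, List.foldr_cons]
      generalize L.foldr xor false = y
      revert b y
      decide
  have := gen ([7, 11, 13, 19, 21, 25, 35, 37, 41, 49].map
    (fun s => (cycN c).testBit s && (cycN c).testBit (63 - s)))
  rw [List.map_map] at this
  rw [show (fun m => (fun b : Bool => if b = true then (1 : ZMod 2) else 0)
      ((fun s => (cycN c).testBit s && (cycN c).testBit (63 - s)) m)) =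
      ((fun b : Bool => if b = true then (1 : ZMod 2) else 0) ∘
        (fun s => (cycN c).testBit s && (cycN c).testBit (63 - s))) from rfl, this]
  rw [Bool.not_eq_true'] at h2
  rw [h2]
  rfl

/-- useful form: a cycle containing `Tᶜ` and no complementary pair except possibly `(T, Tᶜ)` does
not contain `T` -/
theorem parity' {T : Finset (Fin 6)} (hT : T.card = 3) {z : Ch} (h : IsCyc z) (h1 : z Tᶜ = 1)
    (h2 : ∀ s : Finset (Fin 6), s.card = 3 → s ≠ T → s ≠ Tᶜ → z s = 0 ∨ z sᶜ = 0) : z T = 0 := by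
  have hp := parity h
  have hcases' : ∀ T : Finset (Fin 6), T.card = 3 → ((0 : Fin 6) ∈ T ∧ T ∈ (powersetCard 3 univ).filter
      (fun s : Finset (Fin 6) => (0 : Fin 6) ∈ s)) ∨ ((0 : Fin 6) ∈ Tᶜ ∧ Tᶜ ∈ (powersetCard 3 univ).filter
      (fun s : Finset (Fin 6) => (0 : Fin 6) ∈ s)) := by
    clear hp h2 h1 h z hT T
    decide +kernel
  have hcases := hcases' T hT
  have hc3 : Tᶜ.card = 3 := by rw [card_compl, hT]; rfl
  have hne : T ≠ Tᶜ := fun h => by
    have h3 := disjoint_compl_right (a := T)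
    rw [← h, disjoint_self] at h3
    rw [h3] at hT
    exact absurd hT (by decide)
  rcases hcases with ⟨h0, hm⟩ | ⟨h0, hm⟩
  · rw [sum_eq_single_of_mem T hm] at hp
    · rw [h1, mul_one] at hp; exact hp
    · intro s hs hsT
      rw [mem_filter, mem_powersetCard] at hs
      have hsT' : s ≠ Tᶜ := fun h => by
        rw [h] at hs; exact (mem_compl.1 hs.2) h0
      rcases h2 s hs.1.2 hsT hsT' with h | h <;> rw [h] <;> simp
  · rw [sum_eq_single_of_mem Tᶜ hm] at hp
    · rw [h1, one_mul, compl_compl] at hp; exact hp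
    · intro s hs hsT
      rw [mem_filter, mem_powersetCard] at hs
      have hsT' : s ≠ T := fun h => by
        rw [h] at hs; exact (mem_compl.1 h0) hs.2
      rcases h2 s hs.1.2 hsT' hsT with h | h <;> rw [h] <;> simp

end Vale.Agent.P032.S5.Tab
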