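import Vale.Agent.P032.S5.No3
import Vale.Agent.P032.S5.H483.IrrZ
import Vale.Agent.P032.S5.H585.GeoX
import Vale.Agent.P032.S5.H585.R2
import Vale.Agent.P032.S5.H57.RingX
import Vale.Agent.P032.S5.H286.Near
import Vale.Agent.P032.S5.H286.Ctx
import Vale.Agent.P032.S5.H678.Lens0
import Vale.Agent.P032.S5.H830.FinX
import Vale.Agent.P032.S5.H830.RingX

/-!
# P032: harmless four-coloured points cannot be the only points with at least four colours

`Reg.coreH` : the frame `Reg` with a point of `Z` whose virtual face is `{3, 4, 5}` is contradictory.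
`Irr.carr_of` : in every disc of radius 11 there is a point with at least four colours which is not
harmless, or two points with at least four colours at distance one.
-/

open Set Filter Topology Metric

noncomputable section

namespace Vale.Agent.P032.Six

open Vale.Agent.P032.S5 Vale.Agent.P032.Carr

/-! ### relabelling -/

theorem Irr.permH {k : ℕ} {U : Fin k → Set ℂ} {T : ℂ → Set (Fin k)} (h : Irr U T)
    (σ : Equiv.Perm (Fin k)) : Irr (fun i => U (σ i)) (fun x => σ ⁻¹' T x) where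
  mx := h.mx.perm σ
  max := fun i x hx => h.max (σ i) x hx
  closed := fun i => h.closed (σ i)
  ne := fun x => by
    obtain ⟨i, hi⟩ := h.ne x
    exact ⟨σ.symm i, by simpa using hi⟩
  sub := fun x i hi => h.sub x hi
  off := fun x hx i hi => h.off x (by rwa [XX_perm] at hx) (σ i) hi
  pure := fun x i hi => (h.pure x (σ i) hi).mono fun w hw => by
    rw [hw]
    ext j
    simp

theorem ncard_permH {k : ℕ} (σ : Equiv.Perm (Fin k)) (s : Set (Fin k)) :
    (σ ⁻¹' s).ncard = s.ncard := by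
  refine Set.ncard_preimage_of_injective_subset_range σ.injective fun x _ => ?_
  exact ⟨σ.symm x, σ.apply_symm_apply x⟩

theorem harm_permH {T : ℂ → Set (Fin 6)} {z : ℂ} {A : Set (Fin 6)} (h : Carr.Harm T z A)
    (σ : Equiv.Perm (Fin 6)) : Carr.Harm (fun x => σ ⁻¹' T x) z (σ ⁻¹' A) where
  four := by rw [ncard_permH]; exact h.four
  two := by rw [ncard_permH]; exact h.two
  sub := preimage_mono h.sub
  h1 := fun y hy hs => by
    refine preimage_mono (h.h1 y hy fun i hi => ?_)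
    have : σ.symm i ∈ σ ⁻¹' T z := hs (by
      show σ (σ.symm i) ∈ T y
      rwa [σ.apply_symm_apply])
    have h2 : σ (σ.symm i) ∈ T z := this
    rwa [σ.apply_symm_apply] at h2
  h2 := by
    obtain ⟨y, hy, hyA⟩ := h.h2
    exact ⟨y, hy, by rw [hyA]⟩

theorem face_permH {T : ℂ → Set (Fin 6)} {v : ℂ} {S : Set (Fin 6)} (h : S5.Face T v S)
    (σ : Equiv.Perm (Fin 6)) : S5.Face (fun x => σ ⁻¹' T x) v (σ ⁻¹' S) := by
  refine ⟨by rw [ncard_permH]; exact h.1, preimage_mono h.2.1, fun y hy hs => h.2.2 y hy ?_⟩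
  intro i hi
  have : σ.symm i ∈ σ ⁻¹' S := hs (by
    show σ (σ.symm i) ∈ T y
    rwa [σ.apply_symm_apply])
  have h2 : σ (σ.symm i) ∈ S := this
  rwa [σ.apply_symm_apply] at h2

/-- the ring condition (R1) at a base without exceptional points on the circle -/
theorem ring_R1 {U : Fin 6 → Set ℂ} {T : ℂ → Set (Fin 6)} {Z : Set ℂ} {f : ℂ → Set (Fin 6)}
    {c v : ℂ} {R δ₀ : ℝ} (G : Reg U T f Z c R) (H : Hm T Z f δ₀) (hv : dist v c ≤ R - 1)
    (hSv : ∀ z ∈ Z, dist z v ≠ 1) (hb : Base T (Ex T Z f) v {3, 4, 5})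
    (hcomp : ∀ s : Set (Fin 6), S5.Face T v s → ∀ u, dist u v ≤ 1 → ¬ S5.Face T u sᶜ) :
    ∀ N : ℕ, ∃ n ≥ N, ∀ l : ℕ → Fin 6, (∀ k, l (k + n) = l k) →
      (∀ k : ℕ, l k ∈ T (v + cis (2 * Real.pi * k / n))) →
      (∀ k, l k ∉ ({3, 4, 5} : Set (Fin 6))) →
      ∑ k ∈ Finset.range n, (if ({l k, l (k + 1)} : Finset (Fin 6)) = {0, 1} then 1 else 0) =
        (1 : ZMod 2) := by
  obtain ⟨δ₁, hδ₁, h1⟩ := H.off_circle hSv
  have hW := H57.hring_of G.irr G.zs G.hml G.free H (B := {v}) (fun x hx => by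
    rw [mem_singleton_iff.1 hx]; exact hv) (fun x hx s hs u hu => by
    rw [mem_singleton_iff.1 hx] at hs hu; exact hcomp s hs u hu) v rfl 3 4 5 0 1 2
    (by decide) hb
  obtain ⟨δ, hev, hδ⟩ := (hW.and (Ioo_mem_nhdsGT hδ₁)).exists
  obtain ⟨j₀, hj₀⟩ := eventually_atTop.1 hev
  intro N
  have hbig : N ≤ 6 * 2 ^ (max N j₀) := by
    have h2 : max N j₀ < 2 ^ (max N j₀) := Nat.lt_two_pow_self
    have := le_max_left N j₀
    omega
  refine ⟨6 * 2 ^ (max N j₀), hbig, fun l hper hlab hoff => ?_⟩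
  refine Eq.trans (Finset.sum_congr rfl fun k _ => ?_) (hj₀ (max N j₀) (le_max_right _ _) l
    (by simpa using hper 0) fun k _ => ⟨?_, hoff k⟩)
  · unfold eps
    by_cases h3 : ({l k, l (k + 1)} : Finset (Fin 6)) = {0, 1}
    · rw [if_pos h3, if_pos]
      refine ⟨fun heq => ?_, h3.symm⟩
      rw [heq, Finset.pair_eq_singleton] at h3
      have h4 := congrArg Finset.card h3
      simp at h4
    · rw [if_neg h3, if_neg]
      rintro ⟨-, h4⟩
      exact h3 h4.symm
  · rw [apx_far fun z hz => hδ.2.trans (h1 z hz _ (pt_ring v _ k)), H57.pt_cis]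
    exact hlab k

/-- **The core**: no point of `Z` with the face `{3, 4, 5}` -/
theorem _root_.Vale.Agent.P032.Carr.Reg.coreH {U : Fin 6 → Set ℂ} {T : ℂ → Set (Fin 6)}
    {Z : Set ℂ} {f : ℂ → Set (Fin 6)} {c v : ℂ} {R δ₀ : ℝ} (G : Reg U T f Z c R)
    (H : Hm T Z f δ₀) (hvZ : v ∈ Z) (hv : dist v c + 4 ≤ R) (hF : S5.Face T v {3, 4, 5}) :
    False := by
  have h := G.irr
  have hZ := G.zs
  have hl := G.hml
  have hfree := G.free
  have hB : ∀ x ∈ closedBall v 1, dist x c ≤ R - 3 := fun x hx => by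
    have := mem_closedBall.1 hx
    have := dist_triangle x v c
    linarith
  have hD : ∀ x ∈ closedBall v 2, dist x c ≤ R - 2 := fun x hx => by
    have := mem_closedBall.1 hx
    have := dist_triangle x v c
    linarith
  have hcompD : ∀ u ∈ closedBall v 2, ∀ u' ∈ closedBall v 2, ∀ s : Set (Fin 6),
      S5.Face T u s → S5.Face T u' sᶜ → 2 ≤ dist u u' := fun u hu u' hu' s F F' =>
    comp_T h hZ hl hfree (by have := hD u hu; linarith) (by have := hD u' hu'; linarith) F F'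
  have hBD : ∀ x ∈ closedBall v 1, closedBall x 1 ⊆ closedBall v 2 := fun x hx y hy => by
    have h1 := mem_closedBall.1 hx
    have h2 := mem_closedBall.1 hy
    have := dist_triangle y x v
    exact mem_closedBall.2 (by linarith)
  have hcompB : ∀ x ∈ closedBall v 1, ∀ s : Set (Fin 6), S5.Face T x s → ∀ u, dist u x ≤ 1 →
      ¬ S5.Face T u sᶜ := fun x hx s F u hu F' => by
    have h1 := hcompD x (hBD x hx (mem_closedBall_self zero_le_one)) u
      (hBD x hx (mem_closedBall.2 hu)) s F F'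
    rw [dist_comm] at h1
    linarith
  have hvB : v ∈ closedBall v 1 := mem_closedBall_self zero_le_one
  have hSv : ∀ z ∈ Z, dist z v ≠ 1 := fun z hz => hfree z hz v hvZ
  have hbase : Base T (Ex T Z f) v {3, 4, 5} := by
    refine ⟨hF, fun i hi j hj hij hE => ?_⟩
    rcases hE with ⟨-, hf⟩ | ⟨h1, -⟩
    · obtain ⟨y, hy, hyf⟩ := hl.h2 v (hZ.sub hvZ) (hZ.four v hvZ)
      refine hF.2.2 y hy ?_
      rw [hyf, hf]
      exact insert_subset hi (singleton_subset_iff.2 hj)
    · exact h1 hvZ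
  have hLam : LamX T (Ex T Z f) (closedBall v 1) (lamT T Z f δ₀) := by
    refine lamX_of h hZ hl hfree H (fun x hx => by have := hB x hx; linarith) hcompB ?_
      (H57.hring_of h hZ hl hfree H (fun x hx => by have := hB x hx; linarith) hcompB)
    intro x hx S t b c' htb htc hbc hbS hne hnec hint u u' Fu Fu' hu hu' huu hnot
    exact lens0_T h hZ hl hfree H (by have := hB x hx; linarith) htb htc hbc hbS.1 hint Fu Fu' hu
      hu' huu hnot
  have hGeo : GeoX T (Ex T Z f) (closedBall v 1) (closedBall v 2) :=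
    G.geoX (fun x hx => by have := hB x hx; linarith) hBD hcompD
  refine EndX.cech_endX hLam hGeo Subset.rfl h.nhd (fun x _ => h.ne x) hF ?_
    (EndX.ring_of h.nhd hF (ring_R1 G H (by linarith) hSv hbase (hcompB v hvB)) ?_)
  · intro p hp Q hQ hQc hQp _ x hx y hy S S' hS hS' hpS hpS' hne
    refine h.near hp hQc hQp hx hy hS.1 hS'.1 hpS hpS' hne (fun z hz s Fz w hw u hu Fu => ?_) ?_
    · exact hcompD z (hBD z (hQ hz) (mem_closedBall_self zero_le_one)) u
        (hBD w (hQ hw) (mem_closedBall.2 hu)) s Fz Fu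
    · intro hxy
      by_cases hxZ : x ∈ Z
      · right
        exact G.le3 (by have := hB y (hQ hy); linarith) fun hyZ => hfree x hxZ y hyZ hxy
      · left
        exact G.le3 (by have := hB x (hQ hx); linarith) hxZ
  · intro y hy i j _ hi hj _ _ hE
    obtain ⟨t, ht, htS, hev⟩ := G.R2 (by linarith) hF hSv hy (hcompB v hvB _ hF y hy.le) hi hj hE
    exact ⟨t, ht, htS, hev.mono fun y' h' h1 h2 => (h' h1 h2).2⟩

/-- **Harmless four-coloured points cannot be the only ones** (disc form). -/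
theorem Irr.carr_of {U : Fin 6 → Set ℂ} {T : ℂ → Set (Fin 6)} (h : Irr U T) (c : ℂ)
    (hH : ∀ z, dist z c ≤ 11 → 4 ≤ (T z).ncard → ∃ A, Carr.Harm T z A)
    (hU : ∀ z z', dist z c ≤ 11 → dist z' c ≤ 11 → 4 ≤ (T z).ncard → 4 ≤ (T z').ncard →
      dist z z' ≠ 1) : False := by
  obtain ⟨v, hv, hv4⟩ := h.exists_four c
  obtain ⟨A, hA⟩ := hH v (by linarith) hv4
  obtain ⟨b, hb⟩ : A.Nonempty := Set.nonempty_of_ncard_ne_zero (by rw [hA.two]; norm_num)
  have hS3 : (T v \ {b}).ncard = 3 := by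
    rw [Set.ncard_sdiff_singleton_of_mem (hA.sub hb), hA.four]
  have hF : S5.Face T v (T v \ {b}) := by
    refine ⟨hS3, sdiff_subset, fun y hy hs => ?_⟩
    exact (hs (hA.h1 y hy (hs.trans sdiff_subset) hb)).2 rfl
  obtain ⟨σ, hσ⟩ := exists_perm hS3
  have hF' := face_permH hF σ
  rw [hσ] at hF'
  -- the relabelled cover
  have h' := h.permH σ
  have hHf : ∀ z, dist z c ≤ 11 → 4 ≤ (σ ⁻¹' T z).ncard →
      Carr.Harm (fun x => σ ⁻¹' T x) z (fA (fun x => σ ⁻¹' T x) z) := fun z hz h4 => by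
    rw [ncard_permH] at h4
    obtain ⟨A', hA'⟩ := hH z hz h4
    exact fA_spec ⟨_, harm_permH hA' σ⟩
  obtain ⟨Z, hZ⟩ := exists_Zs h' c 10
  have hb11 : ∀ z ∈ ball c (10 + 1), dist z c ≤ 11 := fun z hz => by
    have := mem_ball.1 hz
    linarith
  have hl : Hml (fun x => σ ⁻¹' T x) (fA (fun x => σ ⁻¹' T x)) (ball c (10 + 1)) :=
    ⟨fun z hz h4 => (hHf z (hb11 z hz) h4).four, fun z hz h4 => (hHf z (hb11 z hz) h4).two,
      fun z hz h4 => (hHf z (hb11 z hz) h4).sub, fun z hz h4 => (hHf z (hb11 z hz) h4).h1,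
      fun z hz h4 => (hHf z (hb11 z hz) h4).h2⟩
  obtain ⟨δ₀, H⟩ := exists_Hm_of h' hZ hl
  have hv4' : 4 ≤ (σ ⁻¹' T v).ncard := by
    rw [ncard_permH]
    exact hv4
  refine Reg.coreH ⟨h', hZ, hl, fun z hz z' hz' => ?_⟩ H
    (hZ.mem v (mem_closedBall.2 (by linarith)) hv4') (by linarith) hF'
  refine hU z z' (hb11 z (hZ.sub hz)) (hb11 z' (hZ.sub hz')) ?_ ?_
  · have := hZ.four z hz
    rwa [ncard_permH] at this
  · have := hZ.four z' hz'
    rwa [ncard_permH] at this

/-- the same with helper585's notion of a harmless point, in every disc of radius 11 -/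
theorem Irr.carr_six {U : Fin 6 → Set ℂ} {T : ℂ → Set (Fin 6)} (h : Irr U T) (c : ℂ)
    (hH : ∀ z, dist z c ≤ 11 → 4 ≤ (T z).ncard → ∃ A, Six.Harm T z A)
    (hU : ∀ z z', dist z c ≤ 11 → dist z' c ≤ 11 → 4 ≤ (T z).ncard → 4 ≤ (T z').ncard →
      dist z z' ≠ 1) : False := by
  refine h.carr_of c (fun z hz h4 => ?_) hU
  obtain ⟨A, hA⟩ := hH z hz h4
  obtain ⟨p, hp, hev⟩ := hA.arc
  exact ⟨A, hA.card, hA.cardA, hA.sub, hA.h1, p, hp, hev.self_of_nhdsWithin hp⟩

end Vale.Agent.P032.Six
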