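import Vale.Agent.P032.S5.H11.CarrH
import Vale.Agent.P032.Carr.LamU
import Vale.Agent.P032.S5.H585.R2S
import Vale.Agent.P032.S5.H286.NearZ
import Vale.Agent.P032.S5.H585.RingU
import Vale.Agent.P032.S5.H843.Core7
import Vale.Agent.P032.S5.H827.Edge
import Vale.Agent.P032.S5.H205.CompU
import Vale.Agent.P032.S5.H830.FinH

/-!
# P032: harmless four-coloured points with unit pairs, the final argument

The glue for the case in which harmless points at distance one are allowed. `InU` collects the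
inputs at the bases (lens, rings).
-/

open Set Filter Topology Metric

noncomputable section

namespace Vale.Agent.P032.Carr

open Vale.Agent.P032.S5 Vale.Agent.P032.Six

variable {U : Fin 6 → Set ℂ} {T : ℂ → Set (Fin 6)} {Z : Set ℂ} {f : ℂ → Set (Fin 6)}
  {c v : ℂ} {R δ₀ : ℝ}

/-- the inputs at the bases when unit pairs of harmless points are allowed -/
structure InU (T : ℂ → Set (Fin 6)) (Z : Set ℂ) (f : ℂ → Set (Fin 6)) (c : ℂ) (R δ₀ : ℝ) :
    Prop where
  lens : ∀ x, dist x c ≤ R - 2 → ∀ S : Set (Fin 6), ∀ t b c', t ≠ b → t ≠ c' → b ≠ c' →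
    Base T (Ex T Z f) x S → ({t, b, c'} : Set (Fin 6)) ≠ S → ({t, b, c'} : Set (Fin 6))ᶜ ≠ S →
    ({t, b, c'} : Set (Fin 6)) ∩ S = {t} → ∀ u u', S5.Face T u {t, b, c'} →
    S5.Face T u' ({t, b, c'} : Set (Fin 6))ᶜ → dist u x = 1 → dist u' x = 1 → dist u u' = 2 →
    (¬ ∀ᶠ w in 𝓝[closedBall x 1 \ {u}] u, t ∉ T w) → lamT T Z f δ₀ t x b c' = 0
  ring : ∀ x, dist x c ≤ R - 2 → ∀ a b c' d e g : Fin 6, [a, b, c', d, e, g].Nodup →
    Base T (Ex T Z f) x {a, b, c'} →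
    ∀ᶠ δ in 𝓝[>] (0 : ℝ), ∀ᶠ j : ℕ in atTop, ∀ h : ℕ → Fin 6, h (6 * 2 ^ j) = h 0 →
    (∀ k ≤ 6 * 2 ^ j, h k ∈ apx T Z δ (hp T f {a, b, c'}) (pt x j (2 ^ j) k) ∧
      h k ∉ ({a, b, c'} : Set (Fin 6))) →
      ∑ k ∈ Finset.range (6 * 2 ^ j), eps (h k) (h (k + 1)) {d, e} = 1

/-- **The core** with unit pairs: no point of `Z` with the face `{3, 4, 5}` -/
theorem RegS.coreU (G : RegS U T f Z c R) (hmin : MinF U T) (H : Hm T Z f δ₀)
    (I : InU T Z f c R δ₀) (hvZ : v ∈ Z) (hv : dist v c + 4 ≤ R) (hF : S5.Face T v {3, 4, 5}) :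
    False := by
  have h := G.irr
  have hZ := G.zs
  have hl := G.hml
  have hB : ∀ x ∈ closedBall v 1, dist x c ≤ R - 3 := fun x hx => by
    have := mem_closedBall.1 hx
    have := dist_triangle x v c
    linarith
  have hD : ∀ x ∈ closedBall v 2, dist x c ≤ R - 2 := fun x hx => by
    have := mem_closedBall.1 hx
    have := dist_triangle x v c
    linarith
  have hcompD : ∀ u ∈ closedBall v 2, ∀ u' ∈ closedBall v 2, ∀ s : Set (Fin 6),
      S5.Face T u s → S5.Face T u' sᶜ → 2 ≤ dist u u' := fun u hu u' hu' s F F' =>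
    comp_U h hmin hZ hl G.up (by have := hD u hu; linarith) (by have := hD u' hu'; linarith) F F'
  have hBD : ∀ x ∈ closedBall v 1, closedBall x 1 ⊆ closedBall v 2 := fun x hx y hy => by
    have h1 := mem_closedBall.1 hx
    have h2 := mem_closedBall.1 hy
    have := dist_triangle y x v
    exact mem_closedBall.2 (by linarith)
  have hcompB : ∀ x ∈ closedBall v 1, ∀ s : Set (Fin 6), S5.Face T x s → ∀ u, dist u x ≤ 1 →
      ¬ S5.Face T u sᶜ := fun x hx s F u hu F' => by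
    have h1 := hcompD x (hBD x hx (mem_closedBall_self zero_le_one)) u
      (hBD x hx (mem_closedBall.2 hu)) s F F'
    rw [dist_comm] at h1
    linarith
  have hvB : v ∈ closedBall v 1 := mem_closedBall_self zero_le_one
  have hnf : ∀ x ∈ Z, ∀ S, S5.Face T x S → ¬ f x ⊆ S := fun x hx S F hs => by
    obtain ⟨y, hy, hyf⟩ := hl.h2 x (hZ.sub hx) (hZ.four x hx)
    exact F.2.2 y hy (by rw [hyf]; exact hs)
  have hbase : Base T (Ex T Z f) v {3, 4, 5} := by
    refine ⟨hF, fun i hi j hj hij hE => ?_⟩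
    rcases hE with ⟨-, hf⟩ | ⟨h1, -⟩
    · refine hnf v hvZ _ hF ?_
      rw [hf]
      exact insert_subset hi (singleton_subset_iff.2 hj)
    · exact h1 hvZ
  have hLam : LamX T (Ex T Z f) (closedBall v 1) (lamT T Z f δ₀) :=
    lamX_U h hZ hl G.up H (fun x hx => by have := hB x hx; linarith) hcompB
      (fun x hx => I.lens x (by have := hB x hx; linarith))
      (fun x hx => I.ring x (by have := hB x hx; linarith))
  have hGeo : GeoX T (Ex T Z f) (closedBall v 1) (closedBall v 2) :=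
    G.geoX (fun x hx => by have := hB x hx; linarith) hBD hcompD
  refine EndX.cech_endH hLam hGeo Subset.rfl h.nhd (fun x _ => h.ne x) hF ?_
    (G.ringU H (by linarith) hbase (fun y hy => hcompB v hvB _ hF y hy.le) (by decide)
      (I.ring v (by linarith) 3 4 5 0 1 2 (by decide) hbase))
  intro p hp Q hQ hQc hQp _ x hx y hy S S' hS hS' hpS hpS' hne
  have hx' := hB x (hQ hx)
  refine Or.inl (h.near' hp hQc hQp hx hy hS.1 hS'.1 hpS hpS' hne
    (fun z hz s Fz w hw u hu Fu => ?_) ?_)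
  · exact hcompD z (hBD z (hQ hz) (mem_closedBall_self zero_le_one)) u
      (hBD w (hQ hw) (mem_closedBall.2 hu)) s Fz Fu
  · by_cases hxZ : x ∈ Z
    · exact Or.inr ⟨f x, G.harm hxZ, hnf x hxZ S hS.1⟩
    · exact Or.inl (G.le3 (by linarith) hxZ)

end Vale.Agent.P032.Carr

namespace Vale.Agent.P032.Six

open Vale.Agent.P032.S5 Vale.Agent.P032.Carr

theorem MinF.perm {k : ℕ} {U : Fin k → Set ℂ} {T : ℂ → Set (Fin k)} (h : MinF U T)
    (σ : Equiv.Perm (Fin k)) : MinF (fun i => U (σ i)) (fun x => σ ⁻¹' T x) := by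
  intro z h4 s hs hne hev
  rw [ncard_permH] at h4
  refine h z h4 (σ '' s) ?_ ?_ (hev.mono fun w hw => ?_)
  · rintro _ ⟨i, hi, rfl⟩
    exact hs hi
  · intro heq
    apply hne
    show s = σ ⁻¹' T z
    rw [← heq, Set.preimage_image_eq _ σ.injective]
  · obtain ⟨i, hi, hw⟩ := hw
    refine ⟨σ i, mem_image_of_mem _ hi, hw.imp id fun h2 => ⟨?_, h2.2⟩⟩
    have := h2.1
    rwa [XX_perm] at this

/-- **Harmless points, unit pairs allowed** (disc form), from the inputs at the bases -/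
theorem Irr.carrU_of
    (HI : ∀ (U : Fin 6 → Set ℂ) (T : ℂ → Set (Fin 6)) (Z : Set ℂ) (f : ℂ → Set (Fin 6)) (c : ℂ)
      (R δ₀ : ℝ), RegS U T f Z c R → MinF U T → Hm T Z f δ₀ → InU T Z f c R δ₀)
    {U : Fin 6 → Set ℂ} {T : ℂ → Set (Fin 6)} (h : Irr U T) (hmin : MinF U T) (c : ℂ)
    (hH : ∀ z, dist z c ≤ 11 → 4 ≤ (T z).ncard → ∃ A, Six.Harm T z A)
    (hds : ∀ z z' A A', dist z c ≤ 11 → dist z' c ≤ 11 → Six.Harm T z A → Six.Harm T z' A' →
      dist z z' = 1 → T z \ A ≠ T z' \ A') : False := by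
  obtain ⟨v, hv, hv4⟩ := h.exists_four c
  obtain ⟨A, hA⟩ := hH v (by linarith) hv4
  obtain ⟨b, hb⟩ : A.Nonempty := Set.nonempty_of_ncard_ne_zero (by rw [hA.cardA]; norm_num)
  have hS3 : (T v \ {b}).ncard = 3 := by
    rw [Set.ncard_sdiff_singleton_of_mem (hA.sub hb), hA.card]
  have hF : S5.Face T v (T v \ {b}) := by
    refine ⟨hS3, sdiff_subset, fun y hy hs => ?_⟩
    exact (hs (hA.h1 y hy (hs.trans sdiff_subset) hb)).2 rfl
  obtain ⟨σ, hσ⟩ := exists_perm hS3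
  have hF' := face_permH hF σ
  rw [hσ] at hF'
  -- the relabelled cover
  have h' := h.permH σ
  have hinj : ∀ s t : Set (Fin 6), σ ⁻¹' s = σ ⁻¹' t → s = t := fun s t hst =>
    σ.surjective.preimage_injective hst
  obtain ⟨Z, hZ⟩ := exists_Zs h' c 10
  have hb11 : ∀ z ∈ ball c (10 + 1), dist z c ≤ 11 := fun z hz => by
    have := mem_ball.1 hz
    linarith
  -- the forbidden pairs of the original cover
  choose! g hg using hH
  have hgz : ∀ z ∈ ball c (10 + 1), 4 ≤ (σ ⁻¹' T z).ncard → Six.Harm T z (g z) := fun z hz h4 => by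
    rw [ncard_permH] at h4
    exact hg z (hb11 z hz) h4
  have hl : Hml (fun x => σ ⁻¹' T x) (fun x => σ ⁻¹' g x) (ball c (10 + 1)) := by
    refine ⟨fun z hz h4 => ?_, fun z hz h4 => ?_, fun z hz h4 => preimage_mono (hgz z hz h4).sub,
      fun z hz h4 y hy hs => ?_, fun z hz h4 => ?_⟩
    · rw [ncard_permH]; exact (hgz z hz h4).card
    · rw [ncard_permH]; exact (hgz z hz h4).cardA
    · refine preimage_mono ((hgz z hz h4).h1 y hy fun i hi => ?_)
      have : σ.symm i ∈ σ ⁻¹' T z := hs (by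
        show σ (σ.symm i) ∈ T y
        rwa [σ.apply_symm_apply])
      have h2 : σ (σ.symm i) ∈ T z := this
      rwa [σ.apply_symm_apply] at h2
    · obtain ⟨p, hp, hev⟩ := (hgz z hz h4).arc
      exact ⟨p, hp, by rw [hev.self_of_nhdsWithin hp]⟩
  have hZh : ∀ z ∈ Z, Six.Harm T z (g z) := fun z hz => hgz z (hZ.sub hz) (hZ.four z hz)
  have hZd : ∀ z ∈ Z, dist z c ≤ 11 := fun z hz => hb11 z (hZ.sub hz)
  have hup : ∀ z ∈ Z, ∀ x ∈ Z, dist x z = 1 → σ ⁻¹' T z \ σ ⁻¹' g z ⊆ σ ⁻¹' T x →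
      σ ⁻¹' g x = σ ⁻¹' T z \ σ ⁻¹' g z := by
    intro z hz x hx hxz hs
    have hs' : T z \ g z ⊆ T x := fun i hi => by
      have : σ.symm i ∈ σ ⁻¹' T x := hs (by
        refine ⟨?_, fun h2 => hi.2 ?_⟩
        · show σ (σ.symm i) ∈ T z
          rw [σ.apply_symm_apply]; exact hi.1
        · have h3 : σ (σ.symm i) ∈ g z := h2
          rwa [σ.apply_symm_apply] at h3)
      have h2 : σ (σ.symm i) ∈ T x := this
      rwa [σ.apply_symm_apply] at h2
    rcases Six.Harm.unit_pair h hmin (hZh z hz) (hZh x hx) hxz hs' with h1 | h1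
    · rw [h1]; rfl
    · exact absurd h1.1 (hds z x _ _ (hZd z hz) (hZd x hx) (hZh z hz) (hZh x hx)
        (by rw [dist_comm]; exact hxz))
  obtain ⟨δ₀, H⟩ := exists_Hm_of h' hZ hl
  have G : RegS (fun i => U (σ i)) (fun x => σ ⁻¹' T x) (fun x => σ ⁻¹' g x) Z c 10 :=
    ⟨h', hZ, hl, hup⟩
  have hv4' : 4 ≤ (σ ⁻¹' T v).ncard := by
    rw [ncard_permH]
    exact hv4
  have hvZ : v ∈ Z := hZ.mem v (mem_closedBall.2 (by linarith)) hv4'
  exact G.coreU (hmin.perm σ) H (HI _ _ Z _ c 10 δ₀ G (hmin.perm σ) H) hvZ (by linarith) hF'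

/-- **Row XC** (the block `hC` of `core7_of`), from the inputs at the bases -/
theorem Irr.hC_of
    (HI : ∀ (U : Fin 6 → Set ℂ) (T : ℂ → Set (Fin 6)) (Z : Set ℂ) (f : ℂ → Set (Fin 6)) (c : ℂ)
      (R δ₀ : ℝ), RegS U T f Z c R → MinF U T → Hm T Z f δ₀ → InU T Z f c R δ₀)
    {U : Fin 6 → Set ℂ} {T : ℂ → Set (Fin 6)} (h : Irr U T) (hmin : Mn U T) (hA : AllHarm T)
    (hS : NoStar T) : False :=
  h.carrU_of HI (fun z h4 s hs hne => hmin z h4 s hs hne) 0 (fun z _ h4 => hA z h4)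
    fun z z' A A' _ _ hz hz' hd => hS z A z' A' hz hz' hd

end Vale.Agent.P032.Six
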