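import Vale.Agent.P032.S5.H11.CarrU
import Vale.Agent.P032.S5.H678.LensU

/-!
# P032: harmless four-coloured points with unit pairs, the lens input discharged
-/

open Set Filter Topology Metric

noncomputable section

namespace Vale.Agent.P032.Carr

open Vale.Agent.P032.S5 Vale.Agent.P032.Six

variable {U : Fin 6 → Set ℂ} {T : ℂ → Set (Fin 6)} {Z : Set ℂ} {f : ℂ → Set (Fin 6)}
  {c : ℂ} {R δ₀ : ℝ}

/-- the ring sums at the bases of the disc of radius `R - 2` about `c` -/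
def RingIn (T : ℂ → Set (Fin 6)) (Z : Set ℂ) (f : ℂ → Set (Fin 6)) (c : ℂ) (R : ℝ) : Prop :=
  ∀ x, dist x c ≤ R - 2 → ∀ a b c' d e g : Fin 6, [a, b, c', d, e, g].Nodup →
    Base T (Ex T Z f) x {a, b, c'} →
    ∀ᶠ δ in 𝓝[>] (0 : ℝ), ∀ᶠ j : ℕ in atTop, ∀ h : ℕ → Fin 6, h (6 * 2 ^ j) = h 0 →
    (∀ k ≤ 6 * 2 ^ j, h k ∈ apx T Z δ (hp T f {a, b, c'}) (pt x j (2 ^ j) k) ∧
      h k ∉ ({a, b, c'} : Set (Fin 6))) →
      ∑ k ∈ Finset.range (6 * 2 ^ j), eps (h k) (h (k + 1)) {d, e} = 1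

/-- the inputs at the bases from the ring sums alone -/
theorem RegS.inU_of (G : RegS U T f Z c R) (hmin : MinF U T) (H : Hm T Z f δ₀)
    (hr : RingIn T Z f c R) : InU T Z f c R δ₀ := by
  refine ⟨fun x hxc S t b e htb hte hbe hB _ _ hint u u' Fu Fu' hu hu' huu hnot => ?_, hr⟩
  exact lens0_U G.irr hmin G.zs G.hml G.up H hxc htb hte hbe hB.1 hint Fu Fu' hu hu' huu hnot

end Vale.Agent.P032.Carr

namespace Vale.Agent.P032.Six

open Vale.Agent.P032.S5 Vale.Agent.P032.Carr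

/-- **Row XC** (the block `hC` of `core7_of`), from the ring sums at the bases -/
theorem Irr.hC_ring
    (HR : ∀ (U : Fin 6 → Set ℂ) (T : ℂ → Set (Fin 6)) (Z : Set ℂ) (f : ℂ → Set (Fin 6)) (c : ℂ)
      (R δ₀ : ℝ), RegS U T f Z c R → MinF U T → Hm T Z f δ₀ → RingIn T Z f c R)
    {U : Fin 6 → Set ℂ} {T : ℂ → Set (Fin 6)} (h : Irr U T) (hmin : Mn U T) (hA : AllHarm T)
    (hS : NoStar T) : False :=
  h.hC_of (fun U T Z f c R δ₀ G hm H => G.inU_of hm H (HR U T Z f c R δ₀ G hm H)) hmin hA hS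

end Vale.Agent.P032.Six
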