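import Vale.Agent.P032.S5.H843.Core7
import Vale.Agent.P032.S5.H358.NoSpec
import Vale.Agent.P032.S5.H825.End

/-!
# P032: at most four colours everywhere, unit pairs allowed

`Irr.exists_dpair` : a two-pair point (`D`-point) with a four coloured point at distance one, from
the theorems on `D`-stars (`hS`) and on carriers (`hC`).
-/

open Set Filter Topology Metric

noncomputable section

namespace Vale.Agent.P032.Six

open Vale.Agent.P032.S5 Vale.Agent.P032.S5.H358

variable {U : Fin 6 → Set ℂ} {T : ℂ → Set (Fin 6)}

/-- the circle of a two-pair point without four coloured points is good -/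
theorem Irr.good_three (h : Irr U T) {z : ℂ} (h3 : ∀ y, dist y z = 1 → (T y).ncard ≤ 3) :
    Good U T z := by
  refine ⟨⟨fun a b c d e f C => Vale.Agent.P032.S5.H349.rawT C h3, fun P hP hP2 y hy => h3 y ?_⟩,
    fun y hy => Or.inl (h3 y hy)⟩
  have h1 : closure (Vale.Agent.P032.S5.H767.Ex T z P) ⊆ sphere z 1 :=
    closure_minimal (fun q hq => hq.1) Metric.isClosed_sphere
  exact h1 hy

/-- **No `D`-points when their circles carry no four coloured points** -/
theorem Irr.no_D_three (h : Irr U T) (h4 : ∀ z, (T z).ncard ≤ 4)
    (hD : ∀ z a b c d, DPt T z a b c d → ∀ y, dist y z = 1 → (T y).ncard ≤ 3) :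
    ∀ z a b c d, DPt T z a b c d → False :=
  no_D_of_good h h4 fun z a b c d hz => h.good_three (hD z a b c d hz)

/-- **At most four colours**: a `D`-point with a four coloured point at distance one -/
theorem Irr.exists_dpair (h : Irr U T) (hmin : Mn U T) (h4 : ∀ z, (T z).ncard ≤ 4)
    (hS : AllHarm T → NoStar T) (hC : AllHarm T → NoStar T → False) :
    ∃ z a b c d, DPt T z a b c d ∧ ∃ y, dist y z = 1 ∧ (T y).ncard = 4 := by
  by_contra hcon
  push Not at hcon
  have hD : ∀ z a b c d, DPt T z a b c d → False := by
    refine h.no_D_three h4 fun z a b c d hz y hy => ?_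
    have h1 := hcon z a b c d hz y hy
    have h2 := h4 y
    omega
  have hA : AllHarm T := fun z hz => by
    have hz4 : (T z).ncard = 4 := le_antisymm (h4 z) hz
    exact h.harm_of_noD hmin hz4 (h.exists_inside hz4 fun y _ => h4 y) (hD z)
  exact hC hA (hS hA)

end Vale.Agent.P032.Six
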