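import Vale.Agent.P032.S5.H11.TopD
import Vale.Agent.P032.S5.H306.Disc

/-!
# P032: every disc of radius 20 contains a point of at least five colours or a two-pair point

No assumption on unit pairs.
-/

open Set Filter Topology Metric

noncomputable section

namespace Vale.Agent.P032.Six

variable {U : Fin 6 → Set ℂ} {T : ℂ → Set (Fin 6)}

/-- **Disc form**: near every point there is a point with at least five colours or a two-pair
point -/
theorem Irr.disc_D (h : Irr U T) (hmin : Mn U T) (c : ℂ) :
    ∃ z, dist z c ≤ 20 ∧ (5 ≤ (T z).ncard ∨ ∃ a b c d, DPt T z a b c d) := by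
  by_contra hcon
  push Not at hcon
  have h4 : ∀ z, dist z c ≤ 20 → (T z).ncard ≤ 4 := fun z hz => by
    have := (hcon z hz).1
    omega
  have hA : ∀ z, dist z c ≤ 19 → 4 ≤ (T z).ncard → ∃ A, Harm T z A := fun z hz hz4 => by
    have hz4' : (T z).ncard = 4 := le_antisymm (h4 z (by linarith)) hz4
    refine h.harm_of_noD hmin hz4' (h.exists_inside hz4' fun y hy => h4 y ?_) fun a b c d hD =>
      (hcon z (by linarith)).2 a b c d hD
    have := dist_triangle y z c
    linarith
  have hm : MinF U T := fun z h4 s hs hne => hmin z h4 s hs hne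
  refine h.carrU hm c (fun z hz => hA z (by linarith)) fun z z' A A' hz _ h1 h2 hd => ?_
  exact h.noStar_disc hm (c := c) (R := 19) hA (by linarith) h1 h2 hd

/-- the same with the bound on the number of colours in the disc -/
theorem Irr.exists_D_disc (h : Irr U T) (hmin : Mn U T) (c : ℂ)
    (h4 : ∀ z, dist z c ≤ 20 → (T z).ncard ≤ 4) :
    ∃ z, dist z c ≤ 20 ∧ ∃ a b c' d, DPt T z a b c' d := by
  obtain ⟨z, hz, h5 | hD⟩ := h.disc_D hmin c
  · have := h4 z hz
    omega
  · exact ⟨z, hz, hD⟩

end Vale.Agent.P032.Six
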