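import Vale.Agent.P032.S5.H11.Tab
import Vale.Agent.P032.S5.H11.Mesh2
import Vale.Agent.P032.S5.State
import Vale.Agent.P032.S5.Clopen

/-!
# P032, block S5, (V): final assembly

The labels of the components of `F_i ∩ F_j` and the finite table give a locally constant mod-2
cocycle on the closed unit disc about a three-coloured point whose ring sum is the parity of the
winding: contradiction.
-/

open Set Filter Topology Metric

noncomputable section

namespace Vale.Agent.P032.S5.End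

open Vale.Agent.P032.Six Vale.Agent.P032.S5.Tab

/-! ### functions of three colours as chains -/

/-- the chain of a symmetric function of three colours -/
def ofF (f : Fin 6 → Fin 6 → Fin 6 → ZMod 2) : Ch := fun s => if s.card = 3 then
  ∑ x ∈ (s ×ˢ s ×ˢ s).filter (fun x => x.1 < x.2.1 ∧ x.2.1 < x.2.2), f x.1 x.2.1 x.2.2 else 0

lemma ofF_sorted (f : Fin 6 → Fin 6 → Fin 6 → ZMod 2) {p q r : Fin 6} (h1 : p < q) (h2 : q < r) :
    ofF f {p, q, r} = f p q r := by
  have key : ∀ p q r : Fin 6, p < q → q < r → ({p, q, r} : Finset (Fin 6)).card = 3 ∧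
      (({p, q, r} : Finset (Fin 6)) ×ˢ ({p, q, r} : Finset (Fin 6)) ×ˢ
        ({p, q, r} : Finset (Fin 6))).filter (fun x => x.1 < x.2.1 ∧ x.2.1 < x.2.2) =
        {(p, q, r)} := by decide +kernel
  obtain ⟨k1, k2⟩ := key p q r h1 h2
  unfold ofF
  rw [if_pos k1, k2, Finset.sum_singleton]

lemma ofF_eq {f : Fin 6 → Fin 6 → Fin 6 → ZMod 2} (h12 : ∀ p q r, f p q r = f q p r)
    (h23 : ∀ p q r, f p q r = f p r q) {p q r : Fin 6} (hpq : p ≠ q) (hpr : p ≠ r) (hqr : q ≠ r) :
    ofF f {p, q, r} = f p q r := by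
  rcases lt_or_gt_of_ne hpq with h1 | h1 <;> rcases lt_or_gt_of_ne hpr with h2 | h2 <;>
    rcases lt_or_gt_of_ne hqr with h3 | h3
  · exact ofF_sorted f h1 h3
  · rw [show ({p, q, r} : Finset (Fin 6)) = {p, r, q} from by ext; simp; tauto, ofF_sorted f h2 h3,
      h23]
  · exact absurd (h1.trans h3) (not_lt.2 h2.le)
  · rw [show ({p, q, r} : Finset (Fin 6)) = {r, p, q} from by ext; simp; tauto, ofF_sorted f h2 h1,
      h12, h23]
  · rw [show ({p, q, r} : Finset (Fin 6)) = {q, p, r} from by ext; simp; tauto, ofF_sorted f h1 h2,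
      h12]
  · exact absurd (h1.trans h2) (not_lt.2 h3.le)
  · rw [show ({p, q, r} : Finset (Fin 6)) = {q, r, p} from by ext; simp; tauto, ofF_sorted f h3 h2,
      h23, h12]
  · rw [show ({p, q, r} : Finset (Fin 6)) = {r, q, p} from by ext; simp; tauto, ofF_sorted f h3 h1,
      h12, h23, h12]

lemma ofF_ne {f : Fin 6 → Fin 6 → Fin 6 → ZMod 2} {s : Finset (Fin 6)} (h : s.card ≠ 3) :
    ofF f s = 0 := by
  unfold ofF; rw [if_neg h]

/-! ### the state as a chain -/

variable {K : ℂ → Set (Fin 6)} {B D : Set ℂ} {lam : Fin 6 → ℂ → Fin 6 → Fin 6 → ZMod 2}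
  {v : ℂ}

open Classical in
/-- the palette as a finset -/
def Kf (K : ℂ → Set (Fin 6)) (x : ℂ) : Finset (Fin 6) := Finset.univ.filter (fun i => i ∈ K x)

lemma mem_Kf {x : ℂ} {i : Fin 6} : i ∈ Kf K x ↔ i ∈ K x := by simp [Kf]

lemma coe_Kf (x : ℂ) : (Kf K x : Set (Fin 6)) = K x := by ext; simp [mem_Kf]

lemma ncard_Kf (x : ℂ) : (K x).ncard = (Kf K x).card := by
  rw [← coe_Kf (K := K) x, Set.ncard_coe_finset]

/-- the state -/
def zc (K : ℂ → Set (Fin 6)) (lam : Fin 6 → ℂ → Fin 6 → Fin 6 → ZMod 2) (x : ℂ) : Ch :=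
  ofF (zz K lam x)

lemma zc_eq (h : LamI K B lam) {x : ℂ} (hx : x ∈ B) {p q r : Fin 6} (hpq : p ≠ q) (hpr : p ≠ r)
    (hqr : q ≠ r) : zc K lam x {p, q, r} = zz K lam x p q r :=
  ofF_eq (zz_swap12 h hx) (zz_swap23 h hx) hpq hpr hqr

lemma zc_isCyc (h : LamI K B lam) {x : ℂ} (hx : x ∈ B) (hT : (Kf K x).card = 3) :
    IsCyc (zc K lam x) := by
  intro e he
  obtain ⟨b, c, hbc, rfl⟩ := Finset.card_eq_two.1 he
  have h1 := zz_cycle h hx (by rw [ncard_Kf]; exact hT) hbc
  rw [← Finset.sum_add_sum_compl ({b, c} : Finset (Fin 6))] at h1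
  rw [Finset.sum_pair hbc, zz_self h hx, zz_swap23 h hx c b c, zz_self h hx, add_zero,
    zero_add] at h1
  rw [← h1]
  refine Finset.sum_congr rfl fun l hl => ?_
  rw [Finset.mem_compl, Finset.mem_insert, Finset.mem_singleton, not_or] at hl
  exact zc_eq h hx hl.1 hl.2 hbc

lemma zc_compl (h : LamI K B lam) {x : ℂ} (hx : x ∈ B) (hT : (Kf K x).card = 3) :
    zc K lam x (Kf K x)ᶜ = 1 := by
  have hc : (Kf K x)ᶜ.card = 3 := by rw [Finset.card_compl, hT]; rfl
  obtain ⟨d, e, f, hde, hdf, hef, hs⟩ := Finset.card_eq_three.1 hc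
  have hn : ∀ a ∈ ({d, e, f} : Finset (Fin 6)), a ∉ K x := by
    intro a ha hK
    rw [← hs, Finset.mem_compl, mem_Kf] at ha
    exact ha hK
  rw [hs, zc_eq h hx hde hdf hef]
  exact zz_compl (hn d (by simp)) (hn e (by simp)) (hn f (by simp)) hde hdf hef

lemma zc_no_pair (h : LamI K B lam) (g : GeoI K B D) {x : ℂ} (hx : x ∈ B)
    (hT : (Kf K x).card = 3) (s : Finset (Fin 6)) (hs : s.card = 3) (h1 : s ≠ Kf K x)
    (h2 : s ≠ (Kf K x)ᶜ) : zc K lam x s = 0 ∨ zc K lam x sᶜ = 0 := by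
  have hc : sᶜ.card = 3 := by rw [Finset.card_compl, hs]; rfl
  obtain ⟨p, q, r, hpq, hpr, hqr, hs1⟩ := Finset.card_eq_three.1 hs
  obtain ⟨p', q', r', hpq', hpr', hqr', hs2⟩ := Finset.card_eq_three.1 hc
  rw [hs2, zc_eq h hx hpq' hpr' hqr', hs1, zc_eq h hx hpq hpr hqr]
  by_contra hcon
  rw [not_or] at hcon
  have e1 : ({p, q, r} : Set (Fin 6)) = (s : Set (Fin 6)) := by rw [hs1]; simp
  have e2 : ({p', q', r'} : Set (Fin 6)) = (s : Set (Fin 6))ᶜ := by
    rw [← Finset.coe_compl, hs2]; simp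
  refine hcon.2 (zz_no_pair h g hx (by rw [ncard_Kf]; exact hT) hpq hpr hqr hpq' hpr' hqr'
    (by rw [e1, e2]) ?_ ?_ hcon.1)
  · rw [e1, ← coe_Kf (K := K) x]
    exact fun hcon => h1 (Finset.coe_injective hcon)
  · rw [e2, ← coe_Kf (K := K) x, ← Finset.coe_compl]
    intro hcon
    apply h2
    rw [← compl_compl s, Finset.coe_injective hcon]

lemma zc_adm (h : LamI K B lam) (g : GeoI K B D) {x : ℂ} (hx : x ∈ B)
    (hT : (Kf K x).card = 3) : Adm (Kf K x) (zc K lam x) := by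
  have h1 := zc_isCyc h hx hT
  have h2 := zc_compl h hx hT
  have h3 := zc_no_pair h g hx hT
  have h4 := parity' hT h1 h2 h3
  refine ⟨h1, h2, fun s hs => ?_⟩
  by_cases hs1 : s = Kf K x
  · left; rw [hs1]; exact h4
  · by_cases hs2 : s = (Kf K x)ᶜ
    · right; rw [hs2, compl_compl]; exact h4
    · exact h3 s hs hs1 hs2

/-- the states at two points of a connected subset of `C_p` agree on the triples meeting `p` -/
lemma zc_eq_of_meet (h : LamI K B lam) {C : Set ℂ} (hC : IsPreconnected C) (hCB : C ⊆ B)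
    {p : Finset (Fin 6)} (hCp : ∀ z ∈ C, ∀ i ∈ p, i ∈ K z) {x y : ℂ} (hx : x ∈ C) (hy : y ∈ C)
    {s : Finset (Fin 6)} (hs : s.card = 3) (hsp : ¬ Disjoint s p) :
    zc K lam x s = zc K lam y s := by
  obtain ⟨i, his, hip⟩ := Finset.not_disjoint_iff.1 hsp
  have hc : (s.erase i).card = 2 := by rw [Finset.card_erase_of_mem his, hs]
  obtain ⟨q, r, hqr, he⟩ := Finset.card_eq_two.1 hc
  have hs2 : s = {i, q, r} := by rw [← he, Finset.insert_erase his]
  have hiq : i ≠ q := fun hh => by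
    have : q ∈ s.erase i := by rw [he]; simp
    exact (Finset.mem_erase.1 this).1 hh.symm
  have hir : i ≠ r := fun hh => by
    have : r ∈ s.erase i := by rw [he]; simp
    exact (Finset.mem_erase.1 this).1 hh.symm
  rw [hs2, zc_eq h (hCB hx) hiq hir hqr, zc_eq h (hCB hy) hiq hir hqr]
  exact zz_eq_of_mem h hC hCB (fun z hz => hCp z hz i hip) hx hy q r

/-- local constancy on the triples meeting `p` -/
lemma zc_loc (h : LamI K B lam) {x : ℂ} (hx : x ∈ B) {p : Finset (Fin 6)}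
    (hp : ∀ i ∈ p, i ∈ K x) : ∀ᶠ y in 𝓝 x, y ∈ B → (∀ i ∈ p, i ∈ K y) →
      ∀ s : Finset (Fin 6), s.card = 3 → ¬ Disjoint s p → zc K lam y s = zc K lam x s := by
  have h1 : ∀ᶠ y in 𝓝 x, ∀ i : Fin 6, i ∈ p → i ∈ K y → lam i y = lam i x := by
    rw [eventually_all]
    intro i
    by_cases hi : i ∈ p
    · have h2 := h.loc i x hx (hp i hi)
      rw [eventually_nhdsWithin_iff] at h2
      filter_upwards [h2] with y hy _ hyi
      exact hy hyi
    · exact Eventually.of_forall fun y h => absurd h hi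
  filter_upwards [h1] with y hy hyB hyp s hs hsp
  obtain ⟨i, his, hip⟩ := Finset.not_disjoint_iff.1 hsp
  have hc : (s.erase i).card = 2 := by rw [Finset.card_erase_of_mem his, hs]
  obtain ⟨q, r, hqr, he⟩ := Finset.card_eq_two.1 hc
  have hs2 : s = {i, q, r} := by rw [← he, Finset.insert_erase his]
  have hiq : i ≠ q := fun hh => by
    have : q ∈ s.erase i := by rw [he]; simp
    exact (Finset.mem_erase.1 this).1 hh.symm
  have hir : i ≠ r := fun hh => by
    have : r ∈ s.erase i := by rw [he]; simp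
    exact (Finset.mem_erase.1 this).1 hh.symm
  rw [hs2, zc_eq h hyB hiq hir hqr, zc_eq h hx hiq hir hqr, zz_of_mem (hyp i hip),
    zz_of_mem (hp i hip), hy i hip (hyp i hip)]

/-- distinct colours of a pair and a triple containing it, completed to all six colours -/
lemma six_of_pair (i j k : Fin 6) (hij : i ≠ j) (hik : i ≠ k) (hjk : j ≠ k) :
    ∃ l m n, [i, j, k, l, m, n].Nodup := by
  revert i j k
  decide +kernel

lemma six_of_four (i j k l : Fin 6) (h : [i, j, k, l].Nodup) :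
    ∃ m n, [i, j, k, l, m, n].Nodup := by
  revert i j k l
  decide +kernel

/-- a 3-subset avoiding `i, j` is one of four -/
lemma four_cases {i j k l m n : Fin 6} (hnd : [i, j, k, l, m, n].Nodup) {s : Finset (Fin 6)}
    (hs : s.card = 3) (hd : Disjoint s {i, j}) :
    s = {l, m, n} ∨ s = {k, l, m} ∨ s = {k, l, n} ∨ s = {k, m, n} := by
  obtain ⟨⟨hij, hik, hil, him, hin⟩, ⟨hjk, hjl, hjm, hjn⟩, ⟨hkl, hkm, hkn⟩, ⟨hlm, hln⟩, hmn⟩ :=
    nodup6 hnd
  have hsub : s ⊆ {k, l, m, n} := by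
    intro a ha
    have h1 : a ≠ i ∧ a ≠ j := by
      constructor
      · rintro rfl; exact (Finset.disjoint_left.1 hd ha) (by simp)
      · rintro rfl; exact (Finset.disjoint_left.1 hd ha) (by simp)
    have hu : [i, j, k, l, m, n].toFinset = Finset.univ :=
      Finset.eq_univ_of_card _ (by rw [List.toFinset_card_of_nodup hnd]; rfl)
    have h2 : a ∈ [i, j, k, l, m, n].toFinset := by
      rw [hu]
      exact Finset.mem_univ a
    simp only [List.toFinset_cons, List.toFinset_nil, insert_empty_eq, Finset.mem_insert,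
      Finset.mem_singleton] at h2
    simp only [Finset.mem_insert, Finset.mem_singleton]
    tauto
  have hc4 : ({k, l, m, n} : Finset (Fin 6)).card = 4 := by
    rw [Finset.card_insert_of_notMem, Finset.card_insert_of_notMem, Finset.card_pair hmn]
    · simp [hlm, hln]
    · simp [hkl, hkm, hkn]
  -- the missing element
  obtain ⟨a, ha4, has⟩ : ∃ a ∈ ({k, l, m, n} : Finset (Fin 6)), a ∉ s := by
    by_contra hcon
    push Not at hcon
    have : ({k, l, m, n} : Finset (Fin 6)) ⊆ s := hcon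
    have := Finset.card_le_card this
    omega
  have hse : s = ({k, l, m, n} : Finset (Fin 6)).erase a := by
    refine Finset.eq_of_subset_of_card_le (Finset.subset_erase.2 ⟨hsub, has⟩) ?_
    rw [Finset.card_erase_of_mem ha4, hc4, hs]
  simp only [Finset.mem_insert, Finset.mem_singleton] at ha4
  rcases ha4 with rfl | rfl | rfl | rfl
  · left; rw [hse]; ext b; simp only [Finset.mem_erase, Finset.mem_insert, Finset.mem_singleton]
    constructor
    · rintro ⟨h1, h2⟩; tauto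
    · rintro (rfl | rfl | rfl)
      · exact ⟨hkl.symm, by tauto⟩
      · exact ⟨hkm.symm, by tauto⟩
      · exact ⟨hkn.symm, by tauto⟩
  · right; right; right
    rw [hse]; ext b; simp only [Finset.mem_erase, Finset.mem_insert, Finset.mem_singleton]
    constructor
    · rintro ⟨h1, h2⟩; tauto
    · rintro (rfl | rfl | rfl)
      · exact ⟨hkl, by tauto⟩
      · exact ⟨hlm.symm, by tauto⟩
      · exact ⟨hln.symm, by tauto⟩
  · right; right; left
    rw [hse]; ext b; simp only [Finset.mem_erase, Finset.mem_insert, Finset.mem_singleton]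
    constructor
    · rintro ⟨h1, h2⟩; tauto
    · rintro (rfl | rfl | rfl)
      · exact ⟨hkm, by tauto⟩
      · exact ⟨hlm, by tauto⟩
      · exact ⟨hmn.symm, by tauto⟩
  · right; left
    rw [hse]; ext b; simp only [Finset.mem_erase, Finset.mem_insert, Finset.mem_singleton]
    constructor
    · rintro ⟨h1, h2⟩; tauto
    · rintro (rfl | rfl | rfl)
      · exact ⟨hkn, by tauto⟩
      · exact ⟨hln, by tauto⟩
      · exact ⟨hmn, by tauto⟩

/-- **Rule** in chain form -/
lemma zc_rule (h : LamI K B lam) (g : GeoI K B D) {C : Set ℂ} (hC : IsPreconnected C)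
    (hCB : C ⊆ B) {p : Finset (Fin 6)} (hp : p.card = 2) (hCp : ∀ z ∈ C, ∀ i ∈ p, i ∈ K z)
    {x y : ℂ} (hx : x ∈ C) (hy : y ∈ C) (hxy : dist x y < 1) (hTx : (Kf K x).card = 3)
    (hTy : (Kf K y).card = 3) (s : Finset (Fin 6)) (hs : s.card = 3) :
    (Kf K y = Kf K x → zc K lam y s = zc K lam x s) ∧
      (Kf K y ≠ Kf K x → zc K lam y s = zc K lam x s + bd pᶜ s) := by
  have hxB := hCB hx
  have hyB := hCB hy
  by_cases hd : Disjoint s p
  swap
  · have h1 := zc_eq_of_meet h hC hCB hCp hx hy hs hd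
    have h2 : bd pᶜ s = 0 := by
      have : ¬ s ⊆ pᶜ := fun h => hd (Finset.disjoint_left.2 fun a ha => Finset.mem_compl.1 (h ha))
      simp [bd, this]
    exact ⟨fun _ => h1.symm, fun _ => by rw [h1, h2, add_zero]⟩
  obtain ⟨i, j, hij, rfl⟩ := Finset.card_eq_two.1 hp
  have hCi : ∀ z ∈ C, i ∈ K z := fun z hz => hCp z hz i (by simp)
  have hCj : ∀ z ∈ C, j ∈ K z := fun z hz => hCp z hz j (by simp)
  -- palettes
  have third : ∀ z ∈ C, (Kf K z).card = 3 → ∃ k, i ≠ k ∧ j ≠ k ∧ Kf K z = {i, j, k} := by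
    intro z hz hT
    have hsub : ({i, j} : Finset (Fin 6)) ⊆ Kf K z := by
      intro a ha
      rw [mem_Kf]; exact hCp z hz a ha
    have h1 : (Kf K z \ {i, j}).card = 1 := by
      rw [Finset.card_sdiff_of_subset hsub, hT, Finset.card_pair hij]
    obtain ⟨k, hk⟩ := Finset.card_eq_one.1 h1
    have hk2 : k ∈ Kf K z \ {i, j} := by rw [hk]; simp
    simp only [Finset.mem_sdiff, Finset.mem_insert, Finset.mem_singleton, not_or] at hk2
    refine ⟨k, fun h => hk2.2.1 h.symm, fun h => hk2.2.2 h.symm, ?_⟩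
    rw [← Finset.sdiff_union_of_subset hsub, hk]
    ext a; simp; tauto
  obtain ⟨k, hik, hjk, hKx⟩ := third x hx hTx
  obtain ⟨l, hil, hjl, hKy⟩ := third y hy hTy
  have hbd : bd ({i, j} : Finset (Fin 6))ᶜ s = 1 := by
    have : s ⊆ ({i, j} : Finset (Fin 6))ᶜ := by
      intro a ha; rw [Finset.mem_compl]; exact Finset.disjoint_left.1 hd ha
    unfold bd
    rw [if_pos this]
  have hsx : K x = {i, j, k} := by rw [← coe_Kf (K := K) x, hKx]; simp
  have hsy : K y = {i, j, l} := by rw [← coe_Kf (K := K) y, hKy]; simp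
  by_cases hkl : k = l
  · subst hkl
    refine ⟨fun _ => ?_, fun hne => absurd (hKy.trans hKx.symm) hne⟩
    obtain ⟨l, m, n, hnd⟩ := six_of_pair i j k hij hik hjk
    obtain ⟨e1, e2, e3, e4⟩ := rule_same h hnd hC hCB hCi hCj hx hy hsx hsy
    obtain ⟨⟨-, -, hil, him, hin⟩, ⟨-, hjl, hjm, hjn⟩, ⟨hkl, hkm, hkn⟩, ⟨hlm, hln⟩, hmn⟩ :=
      nodup6 hnd
    rcases four_cases hnd hs hd with rfl | rfl | rfl | rfl
    · rw [zc_eq h hyB hlm hln hmn, zc_eq h hxB hlm hln hmn, e1]
    · rw [zc_eq h hyB hkl hkm hlm, zc_eq h hxB hkl hkm hlm, e2]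
    · rw [zc_eq h hyB hkl hkn hln, zc_eq h hxB hkl hkn hln, e3]
    · rw [zc_eq h hyB hkm hkn hmn, zc_eq h hxB hkm hkn hmn, e4]
  · have hnd4 : [i, j, k, l].Nodup := by
      simp [hij, hik, hil, hjk, hjl, hkl]
    obtain ⟨m, n, hnd⟩ := six_of_four i j k l hnd4
    obtain ⟨e1, e2, e3, e4⟩ := rule_diff h g hnd hC hCB hCi hCj hx hy hxy hsx hsy
    obtain ⟨⟨-, -, hil, him, hin⟩, ⟨-, hjl, hjm, hjn⟩, ⟨hkl, hkm, hkn⟩, ⟨hlm, hln⟩, hmn⟩ :=
      nodup6 hnd
    refine ⟨fun heq => ?_, fun _ => ?_⟩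
    · exfalso
      rw [hKy, hKx] at heq
      have : l ∈ ({i, j, k} : Finset (Fin 6)) := by rw [← heq]; simp
      simp only [Finset.mem_insert, Finset.mem_singleton] at this
      rcases this with h | h | h
      · exact hil h.symm
      · exact hjl h.symm
      · exact hkl h.symm
    · rw [hbd]
      have key : ∀ a b : ZMod 2, a = b + 1 → b = a + 1 := by decide
      rcases four_cases hnd hs hd with rfl | rfl | rfl | rfl
      · rw [zc_eq h hyB hlm hln hmn, zc_eq h hxB hlm hln hmn]; exact key _ _ e1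
      · rw [zc_eq h hyB hkl hkm hlm, zc_eq h hxB hkl hkm hlm]; exact key _ _ e2
      · rw [zc_eq h hyB hkl hkn hln, zc_eq h hxB hkl hkn hln]; exact key _ _ e3
      · rw [zc_eq h hyB hkm hkn hmn, zc_eq h hxB hkm hkn hmn]; exact key _ _ e4

/-! ### the labels -/

lemma isClosed_pal (usc : ∀ x, ∀ᶠ y in 𝓝 x, K y ⊆ K x) (p : Finset (Fin 6)) :
    IsClosed {x | ∀ i ∈ p, i ∈ K x} := by
  rw [← isOpen_compl_iff, isOpen_iff_mem_nhds]
  intro x hx
  simp only [mem_compl_iff, mem_ofPred_eq, not_forall] at hx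
  obtain ⟨i, hip, hi⟩ := hx
  filter_upwards [usc x] with y hy
  simp only [mem_compl_iff, mem_ofPred_eq, not_forall]
  exact ⟨i, hip, fun h => hi (hy h)⟩

/-- **the labels over the pair `p`** -/
theorem exists_label (h : LamI K B lam) (g : GeoI K B D) (hvB : closedBall v 1 ⊆ B)
    (usc : ∀ x, ∀ᶠ y in 𝓝 x, K y ⊆ K x) {p : Finset (Fin 6)} (hp : p.card = 2)
    (small : ∀ Q : Set ℂ, Q ⊆ B → IsPreconnected Q → (∀ z ∈ Q, ∀ i ∈ p, i ∈ K z) →
      ∀ x ∈ Q, ∀ y ∈ Q, dist x y < 1) :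
    ∃ Ψ : ℂ → ZMod 2, (∀ x ∈ closedBall v 1, (∀ i ∈ p, i ∈ K x) → ∀ᶠ y in 𝓝 x,
        y ∈ closedBall v 1 → (∀ i ∈ p, i ∈ K y) → Ψ y = Ψ x) ∧
      ∀ x ∈ closedBall v 1, (∀ i ∈ p, i ∈ K x) → (Kf K x).card = 3 →
        Ψ x = Phi p (Kf K x) (zc K lam x) := by
  classical
  let E : Set ℂ := {x | x ∈ closedBall v 1 ∧ ∀ i ∈ p, i ∈ K x}
  have hEc : IsCompact E := (isCompact_closedBall v 1).inter_right (isClosed_pal usc p)
  have : CompactSpace E := isCompact_iff_compactSpace.1 hEc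
  have hEB : E ⊆ B := fun x hx => hvB hx.1
  let X : Finset (Fin 6) × Ch → Set E := fun s =>
    {x | s.1.card = 3 ∧ Kf K (x : ℂ) = s.1 ∧ zc K lam (x : ℂ) = s.2}
  -- local constancy of the state at three-coloured points
  have hloc3 : ∀ x ∈ E, (Kf K x).card = 3 → ∀ᶠ y in 𝓝 x, y ∈ E → Kf K y = Kf K x →
      zc K lam y = zc K lam x := by
    intro x hx hT
    have h1 := zc_loc h (hEB hx) (p := Kf K x) (fun i hi => mem_Kf.1 hi)
    filter_upwards [h1] with y hy hyE hKy
    funext s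
    by_cases hs : s.card = 3
    · by_cases hd : Disjoint s (Kf K x)
      · have hsc : s = (Kf K x)ᶜ := by
          refine Finset.eq_of_subset_of_card_le (fun a ha => Finset.mem_compl.2
            (Finset.disjoint_left.1 hd ha)) ?_
          rw [Finset.card_compl, hT, hs]; rfl
        rw [hsc, zc_compl h (hEB hx) hT, ← hKy, zc_compl h (hEB hyE) (by rw [hKy]; exact hT)]
      · exact hy (hEB hyE) (fun i hi => mem_Kf.1 (by rw [hKy]; exact hi)) s hs hd
    · unfold zc; rw [ofF_ne hs, ofF_ne hs]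
  have hXc : ∀ s, IsClosed (X s) := by
    rintro ⟨T, z⟩
    rw [← isOpen_compl_iff, isOpen_iff_mem_nhds]
    rintro ⟨y, hy⟩ hyX
    rw [mem_compl_iff] at hyX
    simp only [X, mem_ofPred_eq] at hyX
    by_cases hT : T.card = 3
    swap
    · filter_upwards with x hx
      exact hT hx.1
    have h1 : ∀ᶠ x : E in 𝓝 ⟨y, hy⟩, K (x : ℂ) ⊆ K y :=
      Tendsto.eventually (p := fun z => K z ⊆ K y)
        (continuous_subtype_val.tendsto (⟨y, hy⟩ : E)) (usc y)
    by_cases hKy : Kf K y = T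
    · have hzy : zc K lam y ≠ z := fun h => hyX ⟨hT, hKy, h⟩
      have h2 : ∀ᶠ x : E in 𝓝 ⟨y, hy⟩, (x : ℂ) ∈ E → Kf K (x : ℂ) = Kf K y →
          zc K lam (x : ℂ) = zc K lam y :=
        Tendsto.eventually (p := fun x => x ∈ E → Kf K x = Kf K y → zc K lam x = zc K lam y)
          (continuous_subtype_val.tendsto (⟨y, hy⟩ : E)) (hloc3 y hy (by rw [hKy]; exact hT))
      filter_upwards [h2] with x hx2 hx
      exact hzy (by rw [← hx2 x.2 (by rw [hx.2.1, hKy]), hx.2.2])
    · filter_upwards [h1] with x hx1 hx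
      apply hKy
      have hx2 : Kf K (x : ℂ) = T := hx.2.1
      have h3 : T ⊆ Kf K y := by
        intro a ha
        rw [← hx2, mem_Kf] at ha
        exact mem_Kf.2 (hx1 ha)
      have h4 := g.three y (g.sub v (hvB (mem_closedBall_self zero_le_one)) hy.1)
      rw [ncard_Kf] at h4
      exact (Finset.eq_of_subset_of_card_le h3 (by rw [hT]; exact h4)).symm
  let J : Set (Finset (Fin 6) × Ch) := {s | p ⊆ s.1 ∧ Forced p s.1 s.2}
  have hJ : ∀ s ∈ J, ∀ t, t ≠ s → ∀ x ∈ X s, ∀ y ∈ X t, y ∉ connectedComponent x := by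
    rintro ⟨T, z⟩ ⟨hpT, hF⟩ ⟨T₂, z₂⟩ hne ⟨x, hx⟩ ⟨hT, hKx, hzx⟩ ⟨y, hy⟩ ⟨hT₂, hKy, hzy⟩ hconn
    simp only at hpT hF hT hKx hzx hT₂ hKy hzy
    let Q : Set ℂ := Subtype.val '' connectedComponent (⟨x, hx⟩ : E)
    have hQ : IsPreconnected Q :=
      isPreconnected_connectedComponent.image _ continuous_subtype_val.continuousOn
    have hQE : Q ⊆ E := by rintro _ ⟨w, -, rfl⟩; exact w.2
    have hQB : Q ⊆ B := hQE.trans hEB
    have hQp : ∀ z ∈ Q, ∀ i ∈ p, i ∈ K z := fun z hz => (hQE hz).2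
    have hxQ : x ∈ Q := ⟨⟨x, hx⟩, mem_connectedComponent, rfl⟩
    have hyQ : y ∈ Q := ⟨⟨y, hy⟩, hconn, rfl⟩
    have hdist := small Q hQB hQ hQp x hxQ y hyQ
    have hcx : (Kf K x).card = 3 := by rw [hKx]; exact hT
    have hcy : (Kf K y).card = 3 := by rw [hKy]; exact hT₂
    have hrule := fun s hs => zc_rule h g hQ hQB hp hQp hxQ hyQ hdist hcx hcy s hs
    have hadm : Adm T₂ z₂ := by
      rw [← hKy, ← hzy]; exact zc_adm h g (hEB hy) hcy
    have hpT₂ : p ⊆ T₂ := by
      intro i hi; rw [← hKy, mem_Kf]; exact hy.2 i hi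
    have hTT : T₂ = T := forced_unique hp hT hT₂ hpT hpT₂ hF hadm (fun hTne s hs => by
      rw [← hzy, ← hzx]
      exact (hrule s hs).2 (by rw [hKy, hKx]; exact hTne))
    apply hne
    rw [Prod.mk.injEq]
    refine ⟨hTT, ?_⟩
    rw [← hzy, ← hzx]
    funext s
    by_cases hs : s.card = 3
    · exact (hrule s hs).1 (by rw [hKy, hKx]; exact hTT)
    · unfold zc; rw [ofF_ne hs, ofF_ne hs]
  have hfin : Finite (Finset (Fin 6) × Ch) := inferInstance
  obtain ⟨N, hNc, hNX, hNd, hNN, hNe⟩ := exists_clopen_family X hXc J hJ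
  -- the label on `E`
  let L : E → ZMod 2 := fun x => if hh : ∃ s, s ∈ J ∧ x ∈ N s then
    chi p hh.choose.1 hh.choose.2 else psi p (zc K lam (x : ℂ))
  have hL1 : ∀ x : E, ∀ s ∈ J, x ∈ N s → L x = chi p s.1 s.2 := by
    intro x s hs hxs
    have hh : ∃ s, s ∈ J ∧ x ∈ N s := ⟨s, hs, hxs⟩
    have he : hh.choose = s := by
      by_contra hcon
      exact Set.disjoint_left.1 (hNN _ _ hcon) hh.choose_spec.2 hxs
    simp only [L, dif_pos hh, he]
  have hL2 : ∀ x : E, (∀ s ∈ J, x ∉ N s) → L x = psi p (zc K lam (x : ℂ)) := by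
    intro x hx
    have hh : ¬ ∃ s, s ∈ J ∧ x ∈ N s := by
      rintro ⟨s, hs, hxs⟩; exact hx s hs hxs
    simp only [L, dif_neg hh]
  have hLloc : ∀ x : E, ∀ᶠ y in 𝓝 x, L y = L x := by
    intro x
    by_cases hh : ∃ s, s ∈ J ∧ x ∈ N s
    · obtain ⟨s, hs, hxs⟩ := hh
      filter_upwards [(hNc s).isOpen.mem_nhds hxs] with y hy
      rw [hL1 y s hs hy, hL1 x s hs hxs]
    · push Not at hh
      have h1 : ∀ᶠ y in 𝓝 x, ∀ s, y ∉ N s ∨ s ∉ J := by
        rw [eventually_all]
        intro s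
        by_cases hs : s ∈ J
        · filter_upwards [(hNc s).compl.isOpen.mem_nhds (hh s hs)] with y hy
          exact Or.inl hy
        · exact Eventually.of_forall fun y => Or.inr hs
      have h2 : ∀ᶠ y : E in 𝓝 x, (y : ℂ) ∈ B → (∀ i ∈ p, i ∈ K (y : ℂ)) →
          ∀ s : Finset (Fin 6), s.card = 3 → ¬ Disjoint s p →
            zc K lam (y : ℂ) s = zc K lam (x : ℂ) s :=
        Tendsto.eventually (p := fun y => y ∈ B → (∀ i ∈ p, i ∈ K y) →
          ∀ s : Finset (Fin 6), s.card = 3 → ¬ Disjoint s p →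
            zc K lam y s = zc K lam (x : ℂ) s)
          (continuous_subtype_val.tendsto x) (zc_loc h (hEB x.2) x.2.2)
      filter_upwards [h1, h2] with y hy1 hy2
      rw [hL2 x hh, hL2 y (fun s hs hys => (hy1 s).elim (fun h => h hys) (fun h => h hs))]
      exact psi_congr hp fun s hs hd => hy2 (hEB y.2) y.2.2 s hs hd
  refine ⟨fun x => if hx : x ∈ E then L ⟨x, hx⟩ else 0, fun x hx1 hx2 => ?_, fun x hx1 hx2 hT => ?_⟩
  · have hx : x ∈ E := ⟨hx1, hx2⟩
    have h1 := hLloc ⟨x, hx⟩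
    rw [nhds_subtype_eq_comap, eventually_comap] at h1
    filter_upwards [h1] with y hy hy1 hy2
    have hyE : y ∈ E := ⟨hy1, hy2⟩
    rw [dif_pos hx, dif_pos hyE]
    exact hy ⟨y, hyE⟩ rfl
  · have hx : x ∈ E := ⟨hx1, hx2⟩
    show (if hx : x ∈ E then L ⟨x, hx⟩ else 0) = _
    rw [dif_pos hx]
    have hxX : (⟨x, hx⟩ : E) ∈ X (Kf K x, zc K lam x) := ⟨hT, rfl, rfl⟩
    by_cases hF : Forced p (Kf K x) (zc K lam x)
    · have hJx : (Kf K x, zc K lam x) ∈ J := ⟨fun i hi => mem_Kf.2 (hx2 i hi), hF⟩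
      rw [hL1 _ _ hJx (hNX _ hJx hxX)]
      unfold Phi
      rw [if_pos hF]
    · rw [hL2 _ fun s hs hxs => ?_]
      · unfold Phi
        rw [if_neg hF]
      · have hne : (Kf K x, zc K lam x) ≠ s := by
          rintro rfl; exact hF hs.2
        exact Set.disjoint_left.1 (hNd s hs _ hne) hxs hxX

lemma pairs_of (i j k : Fin 6) (hij : i ≠ j) (hjk : j ≠ k) (hik : i ≠ k) :
    ({i, j, k} : Finset (Fin 6)).powersetCard 2 = {{i, j}, {j, k}, {i, k}} ∧
    ({i, j} : Finset (Fin 6)) ∉ ({{j, k}, {i, k}} : Finset (Finset (Fin 6))) ∧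
    ({j, k} : Finset (Fin 6)) ∉ ({{i, k}} : Finset (Finset (Fin 6))) := by
  revert i j k
  decide +kernel

lemma Phi_01 (T : Finset (Fin 6)) (z : Ch) : Phi {0, 1} T z = 1 := by
  unfold Phi; rw [chi_01, psi_01]; simp

lemma Phi_02 (T : Finset (Fin 6)) (z : Ch) : Phi {0, 2} T z = 0 := by
  unfold Phi; rw [chi_02, psi_02]; simp

lemma Phi_12 (T : Finset (Fin 6)) (z : Ch) : Phi {1, 2} T z = 0 := by
  unfold Phi; rw [chi_12, psi_12]; simp

/-- **Final assembly.** No configuration with a three-coloured point of type `{3,4,5}`. -/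
theorem cech_end (h : LamI K B lam) (g : GeoI K B D) (hvB : closedBall v 1 ⊆ B)
    (usc : ∀ x, ∀ᶠ y in 𝓝 x, K y ⊆ K x) (ne : ∀ x ∈ closedBall v 1, (K x).Nonempty)
    (hv : K v = {3, 4, 5})
    (small : ∀ p : Finset (Fin 6), p.card = 2 → ∀ Q : Set ℂ, Q ⊆ B → IsPreconnected Q →
      (∀ z ∈ Q, ∀ i ∈ p, i ∈ K z) → ∀ x ∈ Q, ∀ y ∈ Q, dist x y < 1)
    (av : ∀ y, dist y v = 1 → ∃ c ∈ K y, c ∉ K v)
    (ring : ∀ N : ℕ, ∃ n ≥ N, ∀ l : ℕ → Fin 6, (∀ k, l (k + n) = l k) →
      (∀ k : ℕ, l k ∈ K (v + cis (2 * Real.pi * k / n))) → (∀ k, l k ∉ K v) →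
      ∑ k ∈ Finset.range n, (if ({l k, l (k + 1)} : Finset (Fin 6)) = {0, 1} then 1 else 0) =
        (1 : ZMod 2)) : False := by
  classical
  have hlab : ∀ p : Finset (Fin 6), ∃ Ψ : ℂ → ZMod 2, (p = {0, 1} → ∀ x, Ψ x = 1) ∧
      ((p = {0, 2} ∨ p = {1, 2}) → ∀ x, Ψ x = 0) ∧ (p.card = 2 →
      (∀ x ∈ closedBall v 1, (∀ i ∈ p, i ∈ K x) → ∀ᶠ y in 𝓝 x,
        y ∈ closedBall v 1 → (∀ i ∈ p, i ∈ K y) → Ψ y = Ψ x) ∧
      ∀ x ∈ closedBall v 1, (∀ i ∈ p, i ∈ K x) → (Kf K x).card = 3 →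
        Ψ x = Phi p (Kf K x) (zc K lam x)) := by
    intro p
    by_cases h01 : p = {0, 1}
    · subst h01
      refine ⟨fun _ => 1, fun _ _ => rfl, fun hcon => ?_, fun _ => ⟨fun _ _ _ =>
        Eventually.of_forall fun _ _ _ => rfl, fun x _ _ _ => (Phi_01 _ _).symm⟩⟩
      exact absurd hcon (by decide)
    by_cases h02 : p = {0, 2}
    · subst h02
      exact ⟨fun _ => 0, fun hcon => absurd hcon h01, fun _ _ => rfl, fun _ => ⟨fun _ _ _ =>
        Eventually.of_forall fun _ _ _ => rfl, fun x _ _ _ => (Phi_02 _ _).symm⟩⟩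
    by_cases h12 : p = {1, 2}
    · subst h12
      exact ⟨fun _ => 0, fun hcon => absurd hcon h01, fun _ _ => rfl, fun _ => ⟨fun _ _ _ =>
        Eventually.of_forall fun _ _ _ => rfl, fun x _ _ _ => (Phi_12 _ _).symm⟩⟩
    by_cases hp : p.card = 2
    · obtain ⟨Ψ, hΨ⟩ := exists_label h g hvB usc hp (small p hp)
      exact ⟨Ψ, fun h => absurd h h01, fun h => absurd h (not_or.2 ⟨h02, h12⟩), fun _ => hΨ⟩
    · exact ⟨fun _ => 0, fun h => absurd h h01, fun _ _ => rfl, fun h => absurd h hp⟩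
  choose Ψ hΨ1 hΨ0 hΨ using hlab
  have hDD : closedBall v 1 ⊆ D := g.sub v (hvB (mem_closedBall_self zero_le_one))
  obtain ⟨N, hN⟩ := mesh_even (K := K) (v := v) (φ := fun i j x => Ψ {i, j} x) usc ne
    (fun i j x => by
      show Ψ {i, j} x = Ψ {j, i} x
      rw [Finset.pair_comm])
    (fun i j hij x hx hi hj => by
      have h1 := (hΨ {i, j} (Finset.card_pair hij)).1 x hx (by
        intro a ha
        simp only [Finset.mem_insert, Finset.mem_singleton] at ha
        rcases ha with rfl | rfl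
        · exact hi
        · exact hj)
      filter_upwards [h1] with y hy hyD hyi hyj
      refine hy hyD ?_
      intro a ha
      simp only [Finset.mem_insert, Finset.mem_singleton] at ha
      rcases ha with rfl | rfl
      · exact hyi
      · exact hyj)
    (fun x hx i j k hij hjk hik hi hj hk => by
      have hsub : ({i, j, k} : Finset (Fin 6)) ⊆ Kf K x := by
        intro a ha
        simp only [Finset.mem_insert, Finset.mem_singleton] at ha
        rw [mem_Kf]
        rcases ha with rfl | rfl | rfl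
        · exact hi
        · exact hj
        · exact hk
      have hc : ({i, j, k} : Finset (Fin 6)).card = 3 :=
        Finset.card_eq_three.2 ⟨i, j, k, hij, hik, hjk, rfl⟩
      have h3 := g.three x (hDD hx)
      rw [ncard_Kf] at h3
      have hK : {i, j, k} = Kf K x := Finset.eq_of_subset_of_card_le hsub (by rw [hc]; exact h3)
      have hT : (Kf K x).card = 3 := by rw [← hK]; exact hc
      have hI : Kf K x ≠ {0, 1, 2} := by
        intro hcon
        have h4 : K x = (K v)ᶜ := by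
          rw [← coe_Kf (K := K) x, hcon, hv]
          ext a
          simp only [Finset.coe_insert, Finset.coe_singleton, Set.mem_insert_iff,
            Set.mem_singleton_iff, Set.mem_compl_iff]
          revert a
          decide
        have h5 := g.comp v (hDD (mem_closedBall_self zero_le_one)) x (hDD hx)
          (by rw [hv]; exact ncard_triple (by decide) (by decide) (by decide)) h4
        have h6 : dist x v ≤ 1 := hx
        rw [dist_comm] at h6
        linarith
      have h7 := sum_Phi hT hI (zc_adm h g (hvB hx) hT)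
      have hmem : ∀ a ∈ ({i, j, k} : Finset (Fin 6)), a ∈ K x := fun a ha => mem_Kf.1 (hsub ha)
      have e1 := (hΨ {i, j} (Finset.card_pair hij)).2 x hx
        (fun a ha => hmem a (by simp only [Finset.mem_insert, Finset.mem_singleton] at ha ⊢; tauto)) hT
      have e2 := (hΨ {j, k} (Finset.card_pair hjk)).2 x hx
        (fun a ha => hmem a (by simp only [Finset.mem_insert, Finset.mem_singleton] at ha ⊢; tauto)) hT
      have e3 := (hΨ {i, k} (Finset.card_pair hik)).2 x hx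
        (fun a ha => hmem a (by simp only [Finset.mem_insert, Finset.mem_singleton] at ha ⊢; tauto)) hT
      show Ψ {i, j} x + Ψ {j, k} x + Ψ {i, k} x = 0
      rw [e1, e2, e3]
      obtain ⟨q1, q2, q3⟩ := pairs_of i j k hij hjk hik
      rw [hK] at q1
      rw [q1, Finset.sum_insert q2, Finset.sum_insert q3, Finset.sum_singleton] at h7
      rw [← h7, add_assoc])
  obtain ⟨n, hn, hring⟩ := ring (max N 1)
  have hn1 : N ≤ n := (le_max_left _ _).trans hn
  have hn0 : 0 < n := lt_of_lt_of_le Nat.one_pos ((le_max_right _ _).trans hn)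
  -- ring labels
  have hr : ∀ y, ∃ c, dist y v = 1 → c ∈ K y ∧ c ∉ K v := by
    intro y
    by_cases hy : dist y v = 1
    · obtain ⟨c, hc⟩ := av y hy
      exact ⟨c, fun _ => hc⟩
    · exact ⟨0, fun h => absurd h hy⟩
  choose rl hrl using hr
  let l : ℕ → Fin 6 := fun k => rl (v + cis (2 * Real.pi * k / n))
  have hlK : ∀ k : ℕ, l k ∈ K (v + cis (2 * Real.pi * k / n)) ∧ l k ∉ K v := by
    intro k
    refine hrl _ ?_
    rw [dist_eq_norm, add_sub_cancel_left]
    exact End.norm_cis _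
  have hper : ∀ k, l (k + n) = l k := by
    intro k
    have h1 := pt_period v (m := 1) hn0 1 k
    unfold pt at h1
    simp only [Nat.cast_one, div_one, Complex.ofReal_one, one_mul] at h1
    simp only [l]
    rw [h1]
  have hl012 : ∀ k, l k = 0 ∨ l k = 1 ∨ l k = 2 := by
    intro k
    have h1 := (hlK k).2
    rw [hv] at h1
    generalize l k = a at h1
    revert h1
    revert a
    decide
  have h1 := hring l hper (fun k => (hlK k).1) (fun k => (hlK k).2)
  let c : Fin 6 → Fin 6 → ZMod 2 := fun a b => if ({a, b} : Finset (Fin 6)) = {0, 1} then 1 else 0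
  have h2 := hN n hn1 l hper (fun k => (hlK k).1) c (by
    intro k hk x
    show Ψ {l k, l (k + 1)} x = if ({l k, l (k + 1)} : Finset (Fin 6)) = {0, 1} then 1 else 0
    by_cases h01 : ({l k, l (k + 1)} : Finset (Fin 6)) = {0, 1}
    · rw [if_pos h01, hΨ1 _ h01]
    · rw [if_neg h01]
      refine hΨ0 _ ?_ x
      have ha := hl012 k
      have hb := hl012 (k + 1)
      generalize l k = a at *
      generalize l (k + 1) = b at *
      clear * - hk h01 ha hb
      revert a b
      decide)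
  have h3 : ∑ k ∈ Finset.range n, (if ({l k, l (k + 1)} : Finset (Fin 6)) = {0, 1} then 1 else 0) =
      ∑ k ∈ Finset.range n, (if l k = l (k + 1) then 0 else c (l k) (l (k + 1))) := by
    refine Finset.sum_congr rfl fun k _ => ?_
    by_cases hk : l k = l (k + 1)
    · rw [if_pos hk, if_neg]
      rw [hk]
      generalize l (k + 1) = b
      revert b
      decide
    · rw [if_neg hk]
  rw [h3, h2] at h1
  exact absurd h1 (by decide)

end Vale.Agent.P032.S5.End
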