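import Vale.Agent.P032.S5.H11.CarrV
import Vale.Agent.P032.S5.H180.RulesH
import Vale.Agent.P032.S5.H180.HexZ
import Vale.Agent.P032.S5.H57.RingX

/-!
# P032: the base of the ring when unit pairs of harmless points are allowed

Facts at a base `(x, S)` of the frame `RegS`, for the glue of the odd ring.
-/

open Set Filter Topology Metric

noncomputable section

namespace Vale.Agent.P032.Carr

open Vale.Agent.P032.S5 Vale.Agent.P032.Six

variable {U : Fin 6 → Set ℂ} {T : ℂ → Set (Fin 6)} {Z : Set ℂ} {f : ℂ → Set (Fin 6)}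
  {c x : ℂ} {R δ₀ : ℝ} {S : Set (Fin 6)}

/-- the complementary face does not occur on the circle about a base -/
theorem RegS.hcomp (G : RegS U T f Z c R) (hmin : MinF U T) (hx : dist x c ≤ R - 2)
    (hb : S5.Face T x S) {u : ℂ} (hu : dist u x ≤ 1) : ¬ S5.Face T u Sᶜ := fun F => by
  have h2 := dist_triangle u x c
  have h1 := comp_U G.irr hmin G.zs G.hml G.up (u := x) (u' := u) (by linarith) (by linarith) hb F
  rw [dist_comm] at h1
  linarith

theorem compl_three (h3 : S.ncard = 3) : (Sᶜ).ncard = 3 := by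
  rw [Set.ncard_compl, h3]; simp

/-- no full palette off `Z` on the circle about a base -/
theorem RegS.nc (G : RegS U T f Z c R) (hmin : MinF U T) (hx : dist x c ≤ R - 2)
    (hb : S5.Face T x S) {y : ℂ} (hy : dist y x = 1) (hyZ : y ∉ Z) : ¬ Sᶜ ⊆ T y := fun hsub => by
  have h3 : (T y).ncard ≤ 3 := G.le3 (by have := dist_triangle y x c; linarith) hyZ
  have hT : Sᶜ = T y := Set.eq_of_subset_of_ncard_le hsub (by rw [compl_three hb.1]; exact h3)
    (Set.toFinite _)
  refine G.hcomp hmin hx hb hy.le ⟨compl_three hb.1, hsub, fun w hw => ?_⟩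
  rw [hT]
  exact G.irr.not_sub hw h3

/-- the pair of a point with a full palette lies off the face of the base -/
theorem RegS.fz (G : RegS U T f Z c R) (hmin : MinF U T) (hx : dist x c ≤ R - 2)
    (hb : S5.Face T x S) {z : ℂ} (hz : z ∈ Z) (hzx : dist z x = 1) (hsub : Sᶜ ⊆ T z) :
    f z ⊆ Sᶜ := by
  by_contra hcon
  refine G.hcomp hmin hx hb hzx.le ⟨compl_three hb.1, hsub, fun w hw hwS => hcon ?_⟩
  exact ((G.harm hz).h1 w hw (hwS.trans hsub)).trans hwS

/-- the apex avoids the face of the base -/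
theorem RegS.unp (G : RegS U T f Z c R) (hb : Base T (Ex T Z f) x S) {z : ℂ} (hz : z ∈ Z)
    (hzx : dist z x = 1) : ∃ i ∈ T z, i ∉ f z ∧ i ∉ S :=
  apex_offU G.zs G.hml G.up hb.1.2.1 hb.2 hz hzx

/-- points of the closed unit disc about a base with at least four colours are in `Z` -/
theorem RegS.memZ (G : RegS U T f Z c R) (hx : dist x c ≤ R - 2) {y : ℂ} (hy : dist y x ≤ 1)
    (h4 : 4 ≤ (T y).ncard) : y ∈ Z :=
  G.zs.mem y (mem_closedBall.2 (by have := dist_triangle y x c; linarith)) h4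

theorem RegS.hZ (G : RegS U T f Z c R) (hx : dist x c ≤ R - 2) {y : ℂ} (hy : dist y x = 1)
    (h4 : 4 ≤ (T y).ncard) : Six.Harm T y (f y) :=
  G.harm (G.memZ hx hy.le h4)

/-- the centre is real or harmless -/
theorem RegS.ctr (G : RegS U T f Z c R) (hx : dist x c ≤ R - 2) (hb : S5.Face T x S) :
    T x = S ∨ (x ∈ Z ∧ Six.Harm T x (f x)) := by
  by_cases hxZ : x ∈ Z
  · exact Or.inr ⟨hxZ, G.harm hxZ⟩
  · refine Or.inl (Set.eq_of_subset_of_ncard_le hb.2.1 ?_ (Set.toFinite _)).symm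
    rw [hb.1]
    exact G.le3 (by linarith) hxZ

/-- the pair of a point with a full palette is the complement of the apex -/
theorem RegS.f_eq (G : RegS U T f Z c R) (H : Hm T Z f δ₀) (hmin : MinF U T)
    (hx : dist x c ≤ R - 2) (hb : Base T (Ex T Z f) x S) {z : ℂ} (hz : z ∈ Z)
    (hzx : dist z x = 1) (hsub : Sᶜ ⊆ T z) : f z = Sᶜ \ {hp T f S z} ∧ hp T f S z ∉ S := by
  obtain ⟨i, hi, hif, hiS⟩ := G.unp hb hz hzx
  have h1 : hp T f S z ∉ S := pick_avoid (A := S) ⟨i, hi, hif, hiS⟩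
  have h2 := H.apex hz S
  refine ⟨Set.eq_of_subset_of_ncard_le (fun j hj => ⟨G.fz hmin hx hb.1 hz hzx hsub hj, ?_⟩) ?_
    (Set.toFinite _), h1⟩
  · rintro rfl
    exact h2.2 hj
  · rw [Set.ncard_sdiff_singleton_of_mem h1, compl_three hb.1.1, H.two z hz]

/-- the base for helper180's rules -/
theorem RegS.bs (G : RegS U T f Z c R) (hmin : MinF U T) (hx : dist x c ≤ R - 2)
    (hb : S5.Face T x S) : S5.H180.Bs U T x S where
  irr := G.irr
  three := hb.1
  sub := hb.2.1
  full := hb.2.2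
  ctr := by
    rcases G.ctr hx hb with h | ⟨hxZ, h⟩
    · exact Or.inl h
    · exact Or.inr ⟨f x, h, fun s hs hne => hmin x (G.zs.four x hxZ) s hs hne⟩

/-- the admissible unit pairs on the closed star of a base -/
theorem RegS.hup (G : RegS U T f Z c R) (hx : dist x c ≤ R - 2) :
    ∀ y y', (y = x ∨ dist y x = 1) → (y' = x ∨ dist y' x = 1) → dist y y' = 1 →
      4 ≤ (T y).ncard → 4 ≤ (T y').ncard → T y \ f y ⊆ T y' → T y \ f y = f y' := by
  have key : ∀ y, (y = x ∨ dist y x = 1) → 4 ≤ (T y).ncard → y ∈ Z := fun y hy h4 =>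
    G.memZ hx (by
      rcases hy with rfl | h
      · simp
      · exact h.le) h4
  intro y y' hy hy' hd h4 h4' hs
  exact G.up y (key y hy h4) y' (key y' hy' h4') hd hs

end Vale.Agent.P032.Carr
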