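import Mathlib

/-!
# P032, block S5, (L-T): the finite table (numerical part)

3-subsets of `{0,…,5}` are coded by their masks (`< 64`), a mod-2 chain is a function
`B : ℕ → Bool` (its values on the twenty masks `trips` matter).
-/

namespace Vale.Agent.P032.S5.Tab

/-- masks of the 3-subsets -/
def trips : List ℕ := [7, 11, 13, 14, 19, 21, 22, 25, 26, 28, 35, 37, 38, 41, 42, 44, 49, 50, 52, 56]

/-- masks of the 2-subsets -/
def pairs : List ℕ := [3, 5, 6, 9, 10, 12, 17, 18, 20, 24, 33, 34, 36, 40, 48]

/-- `Tᶜ ∈ z`, and `z` has no complementary pair -/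
def admN (T : ℕ) (B : ℕ → Bool) : Bool :=
  B (63 - T) && trips.all (fun s => !(B s && B (63 - s)))

/-- add the boundary of the tetrahedron `q` -/
def addb (q : ℕ) (B : ℕ → Bool) : ℕ → Bool := fun s => xor (B s) (Nat.land s q == s)

/-- the pair `p` is forced for the state `(T, B)` -/
def forcedN (p T : ℕ) (B : ℕ → Bool) : Bool :=
  trips.all (fun s => !(Nat.land s p == p && !(s == T) && admN s (addb (63 - p) B)))

def prs (T : ℕ) : List ℕ := pairs.filter (fun p => Nat.land p T == p)

/-- the classes with value one -/
def keys : ℕ → List ℕ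
  | 9 => [562984313683968, 562984315256960, 563087392899200, 72075186492407808]
  | 10 => [1125934267105280, 1125934270775424, 1126174785273984]
  | 12 => [6291584, 412316860544]
  | 17 => [2233382995968, 2233383002240, 2336462211200, 76561193933733888]
  | 18 => [4432406251520, 4432406265984, 4672924420224]
  | 20 => [24704, 412316860544]
  | 33 => [34080768, 34087040, 35653760, 76578785851342848]
  | 34 => [67635200, 67649664, 71305344]
  | 36 => [24704, 6291584]
  | _ => []

/-- does `B` agree with the key on the triples meeting `p` -/
def agree (p : ℕ) (B : ℕ → Bool) (key : ℕ) : Bool :=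
  trips.all (fun s => (Nat.land s p == 0) || (B s == key.testBit s))

/-- value of the class label -/
def psiN (p : ℕ) (B : ℕ → Bool) : Bool := p == 3 || (keys p).any (agree p B)

def val0 (q T : ℕ) (B : ℕ → Bool) : Bool :=
  if forcedN q T B then q == 3 else psiN q B

/-- value of the forced label -/
def chiN (p T : ℕ) (B : ℕ → Bool) : Bool :=
  if Nat.land p 7 == p then p == 3
  else if ((prs T).filter (fun q => forcedN q T B && !(Nat.land q 7 == q))).head? == some p then
    (((prs T).filter (fun q => !(q == p))).map (fun q => val0 q T B)).foldr xor false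
  else false

def PhiN (p T : ℕ) (B : ℕ → Bool) : Bool :=
  if forcedN p T B then chiN p T B else psiN p B

/-- the cycle coded by `c < 1024` -/
def cycN (c : ℕ) : ℕ :=
  ([15, 23, 27, 29, 39, 43, 45, 51, 53, 57].zipIdx.map (fun x => if c.testBit x.2 then
    (trips.map (fun s => if Nat.land s x.1 == s then 2 ^ s else 0)).foldr (· + ·) 0 else 0)).foldr
      Nat.xor 0

/-- everything to be checked for the code `c` -/
def chk (c : ℕ) : Bool :=
  let Z := cycN c
  let B : ℕ → Bool := fun s => Z.testBit s
  trips.all (fun T => T == 7 || !(admN T B) ||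
    !(((prs T).map (fun p => PhiN p T B)).foldr xor false))

def parN (c : ℕ) : Bool :=
  let Z := cycN c
  let B : ℕ → Bool := fun s => Z.testBit s
  !((([7, 11, 13, 19, 21, 25, 35, 37, 41, 49].map (fun s => B s && B (63 - s)))).foldr xor false)




theorem chk_all : ∀ c < 1024, chk c = true := by decide +kernel

theorem par_all : ∀ c < 1024, parN c = true := by decide +kernel

end Vale.Agent.P032.S5.Tab
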