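import Vale.Agent.P032.S5.H11.XC
import Vale.Agent.P032.S5.H843.CoreD
import Vale.Agent.P032.S5.H843.PairD

/-!
# P032: the core theorem without hypotheses on carriers
-/

open Set Filter Topology Metric

noncomputable section

namespace Vale.Agent.P032.Six

variable {U : Fin 6 → Set ℂ} {T : ℂ → Set (Fin 6)}

/-- **At most four colours at every point**: some two-pair point has a four coloured point at
distance one -/
theorem Irr.exists_dpair' (h : Irr U T) (hmin : Mn U T) (h4 : ∀ z, (T z).ncard ≤ 4) :
    ∃ z a b c d, DPt T z a b c d ∧ ∃ y, dist y z = 1 ∧ (T y).ncard = 4 :=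
  h.exists_dpair hmin h4 (fun hA => h.noStar hmin h4 hA) fun hA hS => h.hC hmin hA hS

/-- `Irr.coreD_four` without hypotheses on carriers -/
theorem Irr.coreD_four' (h : Irr U T) (hmin : Mn U T) (h4 : ∀ z, (T z).ncard ≤ 4)
    (hU : ∀ z v, dist z v = 1 → 4 ≤ (T v).ncard →
      (5 ≤ (T z).ncard ∨ ∃ a b c d, DPt T z a b c d) → False) : False :=
  h.coreD_four hmin h4 hU fun hA hS => h.hC hmin hA hS

end Vale.Agent.P032.Six
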