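import Vale.Agent.P032.S5.H11.RingB
import Vale.Agent.P032.S5.H180.BaseH
import Vale.Agent.P032.S5.H180.Base
import Vale.Agent.P032.S5.H57.ApxH
import Vale.Agent.P032.S5.H175.NotFrozen

/-!
# P032, row XC: the carrier theorem with unit pairs of harmless points

`RegS.ringIn`: the odd ring at the bases, from the hexagon count (helper180), the frozen states
(helper175) and the dictionary (helper57). `Irr.hC`: the block `hC` of `core7_of`.
-/

open Set Filter Topology Metric

noncomputable section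

namespace Vale.Agent.P032.Carr

open Vale.Agent.P032.S5 Vale.Agent.P032.Six

variable {U : Fin 6 → Set ℂ} {T : ℂ → Set (Fin 6)} {Z : Set ℂ} {f : ℂ → Set (Fin 6)}
  {c x : ℂ} {R δ₀ : ℝ} {S : Set (Fin 6)}

/-- helper180's base -/
theorem RegS.rbh (G : RegS U T f Z c R) (hmin : MinF U T) (H : Hm T Z f δ₀)
    (hx : dist x c ≤ R - 2) (hb : Base T (Ex T Z f) x S) : S5.H180.RBH U T Z f δ₀ x S where
  irr := G.irr
  hm := H
  three := hb.1.1
  sub := hb.1.2.1
  full := hb.1.2.2
  le := fun y hy hyZ => G.le3 (by have := dist_triangle y x c; linarith) hyZ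
  hz := fun z hz => G.harm hz
  opn := fun z hz => G.zs.opn z hz
  ctr := by
    rcases G.ctr hx hb.1 with h | ⟨hxZ, -⟩
    · exact Or.inl h
    · exact Or.inr ⟨hxZ, fun s hs hne => hmin x (G.zs.four x hxZ) s hs hne⟩
  up := G.up
  unp := fun z hz hzx => G.unp hb hz hzx
  comp := fun y hy hsub => by
    by_contra hcon
    push Not at hcon
    exact G.hcomp hmin hx hb.1 hy.le ⟨compl_three hb.1.1, hsub, fun w hw => hcon w hw⟩

/-- **The odd ring** at the bases -/
theorem RegS.ringIn (G : RegS U T f Z c R) (hmin : MinF U T) (H : Hm T Z f δ₀) :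
    RingIn T Z f c R := by
  intro x hx a b c' d e g hnd hb
  have hcov : ∀ i : Fin 6, i ∉ ({a, b, c'} : Set (Fin 6)) ↔ i = d ∨ i = e ∨ i = g := by
    have h1 : ({a, b, c', d, e, g} : Finset (Fin 6)) = Finset.univ := by
      apply Finset.eq_univ_of_card
      have := List.toFinset_card_of_nodup hnd
      simpa using this
    intro i
    have hi : i ∈ ({a, b, c', d, e, g} : Finset (Fin 6)) := by rw [h1]; simp
    simp only [List.nodup_cons, List.mem_cons, List.not_mem_nil, or_false, not_or] at hnd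
    simp only [Finset.mem_insert, Finset.mem_singleton] at hi
    simp only [Set.mem_insert_iff, Set.mem_singleton_iff, not_or]
    rcases hi with rfl | rfl | rfl | rfl | rfl | rfl <;> tauto
  simp only [List.nodup_cons, List.mem_cons, List.not_mem_nil, or_false, not_or] at hnd
  obtain ⟨-, -, -, ⟨hde, hdg⟩, heg, -⟩ := hnd
  have B := G.rbh hmin H hx hb
  have hcol := S5.H180.col_three (F := ({a, b, c'} : Set (Fin 6))) hcov
  have hinj := S5.H180.inj_three hde heg hdg
  have C : S5.H57.RC T Z f δ₀ x ({a, b, c'} : Set (Fin 6)) :=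
    ⟨H, hb.1.1, hb.1.2.2, fun y hy hyZ => G.nc hmin hx hb.1 hy hyZ,
      fun z hz hzx => G.fz hmin hx hb.1 hz hzx, fun z hz hzx => G.unp hb hz hzx⟩
  have h4 : ∀ y, dist y x = 1 → ({a, b, c'} : Set (Fin 6))ᶜ ⊆ T y → y ∈ Z := fun y hy hs => by
    by_contra hyZ
    exact G.nc hmin hx hb.1 hy hyZ hs
  refine C.ringZ hcov hde heg hdg (r := S5.H180.rx T f {a, b, c'} x ![d, e, g])
    (fun t ht => (B.rx_spec hcol ((S5.H180.Qx_univ hcol).2 ht)).symm) (B.hex hcol hinj) ?_
  refine H175.not_frozenZ (G.bs hmin hx hb.1) (f := f) (fun y hy h => G.hZ hx hy h)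
    ((G.ctr hx hb.1).imp id fun h => h.2) (fun y hy hs => G.zs.four y (h4 y hy hs)) (G.hup hx)
    hcol hinj fun t ht => ?_
  have hd := Vale.Agent.P032.H180.dist_pt x t
  rw [← B.rx_spec hcol ((S5.H180.Qx_univ hcol).2 ht)]
  exact (G.f_eq H hmin hx hb (h4 _ hd ht) hd ht).1

end Vale.Agent.P032.Carr

namespace Vale.Agent.P032.Six

open Vale.Agent.P032.S5 Vale.Agent.P032.Carr

/-- **Harmless points, unit pairs allowed** (disc form) -/
theorem Irr.carrU {U : Fin 6 → Set ℂ} {T : ℂ → Set (Fin 6)} (h : Irr U T) (hmin : MinF U T)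
    (c : ℂ) (hH : ∀ z, dist z c ≤ 11 → 4 ≤ (T z).ncard → ∃ A, Six.Harm T z A)
    (hds : ∀ z z' A A', dist z c ≤ 11 → dist z' c ≤ 11 → Six.Harm T z A → Six.Harm T z' A' →
      dist z z' = 1 → T z \ A ≠ T z' \ A') : False :=
  h.carrU_of (fun _ _ _ _ _ _ _ G hm H => G.inU_of hm H (G.ringIn hm H)) hmin c hH hds

/-- **Row XC** : the block `hC` of `core7_of` -/
theorem Irr.hC {U : Fin 6 → Set ℂ} {T : ℂ → Set (Fin 6)} (h : Irr U T) (hmin : Mn U T)
    (hA : AllHarm T) (hS : NoStar T) : False :=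
  h.hC_ring (fun _ _ _ _ _ _ _ G hm H => G.ringIn hm H) hmin hA hS

end Vale.Agent.P032.Six
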